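import Vale.Agent.P242.H703.HfK

/-! P242, package A-H234 (helper703): (h2), (h3), (h4), (h7) for a configuration. -/

set_option linter.all false

open MeasureTheory Filter Topology Set Metric
open scoped ENNReal NNReal InnerProductSpace

universe u

namespace Vale.Agent.P242.H703

open Vale.Agent.P233 Vale.Agent.P233.RA Vale.Agent.P242.H71 Vale.Agent.P242.H990

variable {M : Type u} [MetricSpace M] [CompleteSpace M] [SecondCountableTopology M]
  [MeasurableSpace M] [BorelSpace M] {m : Measure M} {n : ℕ} {K A : ℝ} {o : M} {p : ℝ → M → M → ℝ}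
  {R R' Q η ρ A₀ e : ℝ} {u : Fin n → M →ₘ[m] ℝ} {uu : M → E n}

section

variable (h : Env m n K o A p) (hu : Cfg m n K o p R Q η ρ u uu)
include h hu

theorem hf_G {s : ℝ} (hs : 0 < s) (x : M) (c d : E n) :
    (hf m K p u).G s x c d = Gm m p u s x c d := (sb_Gm h hu hs x).toForm_apply c d

theorem hf_gam {s : ℝ} (hs : 0 < s) (x : M) (c d : E n) :
    (hf m K p u).gam s x c d = gm m K p u s x c d := (sb_gm h hu hs x).toForm_apply c d

theorem sb_tm {s : ℝ} (hs : 0 < s) (x : M) : SymBil (tm m K p u s x) := by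
  have hC := H751.env_gamma h
  have e : ∀ c d : E n, tm m K p u s x c d =
      I ((sob m).lap (ph m p s x) * (sob m).Γ (uc u c) (uc u d)) - 2 * gm m K p u s x c d := by
    intro c d
    rw [lap_Gm h hu hs x c d]
    ring
  have sG := sb_gm h hu hs x
  have hl := ph_lap_mem2 hC.toIsDir h.ker hs x
  have hW : ∀ v : E n, uc u v ∈ (sob m).W := fun v => H751.uc_W hC hu v
  refine ⟨fun c d => ?_, fun a b d => ?_, fun r a d => ?_⟩
  · rw [e, e, sG.symm c d, hC.toIsDir.symm _ (hW c) _ (hW d)]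
  · rw [e, e, e, sG.add, H751.uc_add, hC.toIsDir.add_left _ (hW a) _ (hW b) _ (hW d), mul_add,
      I_add (mem_mul_22 hl (Γ_mem2 h hu a d)) (mem_mul_22 hl (Γ_mem2 h hu b d))]
    ring
  · rw [e, e, sG.smul, H751.uc_smul, hC.toIsDir.smul_left r _ (hW a) _ (hW d), mul_smul_comm,
      I_smul]
    ring

theorem hf_tau {s : ℝ} (hs : 0 < s) (x : M) (c d : E n) :
    (hf m K p u).tau s x c d = tm m K p u s x c d := (sb_tm h hu hs x).toForm_apply c d

/-- The heat flow data of a configuration satisfy the hypotheses of the abstract part. -/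
theorem hf_hyp (hη : 0 ≤ η) {C₀ : ℝ} (hC₀ : 1 ≤ C₀) (hQ : 8 * A ^ 2 ≤ Q) (hR : R' ≤ R) :
    (hf m K p u).Hyp (ball o (R' * ρ)) (ρ ^ 2) Q C₀ (cH n A C₀) (4 * A ^ 2) ((n : ℝ) / 2)
      (12 * n * cH n A C₀ * η) := by
  have hC := H751.env_gamma h
  have hρ := hu.ρ_pos
  have hA := h.kb.one_le
  have hA2 : 1 ≤ A ^ 2 := one_le_pow₀ hA
  have hcH := one_le_cH (n := n) hA (show 0 ≤ C₀ by linarith)
  have hn1 : (2 : ℝ) ≤ n := by exact_mod_cast h.hyp.two_le
  have hQρ := hu.Qρ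
  have hρ2 : 0 < ρ ^ 2 := by positivity
  have hκ0 : 0 < 4 * A ^ 2 := by positivity
  have hQ8 : 8 ≤ Q := by nlinarith
  have hη' : η ≤ 12 * n * cH n A C₀ * η := by
    have h1 : 1 ≤ 12 * n * cH n A C₀ := by
      have : 1 ≤ 12 * (n : ℝ) := by linarith
      exact one_le_mul_of_one_le_of_one_le this hcH
    nlinarith
  have hball : ∀ x ∈ ball o (R' * ρ), x ∈ ball o (R * ρ) := by
    intro x hx
    rw [mem_ball] at hx ⊢
    nlinarith
  have hdist : ∀ x ∈ ball o (R' * ρ), dist x o ≤ 1 := by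
    intro x hx
    have := hball x hx
    rw [mem_ball] at this
    exact this.le.trans hu.Rρ
  have htime : ∀ s, s ≤ ρ ^ 2 → 4 * A ^ 2 * s ≤ Q * ρ ^ 2 := by
    intro s hs
    nlinarith
  refine ⟨by positivity, by linarith, hcH, by linarith, by linarith, by positivity,
    by positivity, ?_, ?_, ?_, ?_, ?_, ?_, ?_, ?_, ?_, ?_, ?_, ?_, ?_⟩
  · intro s x _ c c' hs _
    rw [hf_gam h hu hs, hf_gam h hu hs, (sb_gm h hu hs x).symm]
  · intro s x _ c hs _
    rw [hf_gam h hu hs]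
    exact gm_nonneg h hu hs x c
  · intro x _ c c' s hs
    refine ContinuousAt.continuousWithinAt ?_
    refine (cont_gm h hu x c c' hs.1).congr ?_
    filter_upwards [eventually_gt_nhds hs.1] with r hr
    rw [hf_gam h hu hr]
  · intro x _ c c' s hs
    refine ContinuousAt.continuousWithinAt ?_
    refine (cont_tm h hu x c c' hs.1).congr ?_
    filter_upwards [eventually_gt_nhds hs.1] with r hr
    rw [hf_tau h hu hr]
  · intro s x _ c c' hs _
    rw [hf_G h hu hs, hf_G h hu hs, (sb_Gm h hu hs x).symm]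
  · intro s s' x hx y hy c hs hss hκs hxy
    have hs' : 0 < s' := hs.trans_le hss
    rw [hf_gam h hu hs, hf_gam h hu (by positivity)]
    exact gm_harn h hu hs hss (hκs.trans hQρ) (by linarith) hxy (hdist y hy) c
  · intro s x hx y hy c c' hs hsT hxy
    rw [hf_gam h hu hs, hf_gam h hu hs, hf_gam h hu (by positivity), hf_gam h hu (by positivity)]
    exact gm_lip h hu hs ((htime s hsT).trans hQρ) (by linarith) hxy (hdist x hx) (hdist y hy) c c'
  · intro s x _ c c' hs _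
    rw [hf_gam h hu hs, hf_tau h hu hs]
    refine (hasDeriv_Gm h hu hs x c c').congr_of_eventuallyEq ?_
    filter_upwards [eventually_gt_nhds hs] with r hr
    rw [hf_G h hu hr]
  · intro s x hx c c' hs hsT
    rw [hf_tau h hu hs]
    refine (tm_bd h hu hs (by nlinarith) (hball x hx) hη c c').trans ?_
    have : 12 * n * η / ρ ^ 2 ≤ 12 * n * cH n A C₀ * η / ρ ^ 2 := by
      refine div_le_div_of_nonneg_right ?_ hρ2.le
      have : 0 ≤ 12 * n * η := by positivity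
      nlinarith
    gcongr
  · intro s x hx y hy c c' hs hsT hxy
    rw [hf_tau h hu hs, hf_tau h hu hs]
    refine (tm_lip h hu hs ((htime s hsT).trans hQρ) (htime s hsT) (hball x hx) (by linarith) hxy
      (hdist x hx) (hdist y hy) hη c c').trans (le_of_eq ?_)
    ring
  · intro x hx c
    rw [hf_G h hu hρ2]
    have h1 := hu.gram x (hball x hx) (ρ ^ 2) (by
      rw [div_le_iff₀ (by linarith)]
      nlinarith) (by nlinarith) c c
    rw [real_inner_self_eq_norm_sq] at h1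
    refine h1.trans ?_
    have : η * ‖c‖ * ‖c‖ = η * ‖c‖ ^ 2 := by ring
    rw [this]
    gcongr
  · intro x hx y hy c c' hxy
    rw [hf_G h hu hρ2, hf_G h hu hρ2]
    have h0 : ρ ^ 2 / Q ≤ 4 * A ^ 2 * ρ ^ 2 := by
      rw [div_le_iff₀ (by linarith)]
      have : 1 ≤ 4 * A ^ 2 * Q := by nlinarith
      nlinarith
    refine (Gm_lip_top h hu hρ2 ((htime _ le_rfl).trans hQρ) (htime _ le_rfl) h0 (hball x hx)
      (by linarith) hxy (hdist x hx) (hdist y hy) c c').trans ?_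
    have h1 : cH n A C₀ * η ≤ 12 * n * cH n A C₀ * η := by
      have h2 : 0 ≤ cH n A C₀ * η := by positivity
      have h3 : (1 : ℝ) ≤ 12 * n := by linarith
      calc cH n A C₀ * η ≤ (12 * n) * (cH n A C₀ * η) := le_mul_of_one_le_left h2 h3
        _ = _ := by ring
    calc cH n A C₀ * (dist x y / √(ρ ^ 2)) * (η * ‖c‖ * ‖c'‖)
        = (cH n A C₀ * η) * (dist x y / √(ρ ^ 2)) * (‖c‖ * ‖c'‖) := by ring
      _ ≤ (12 * n * cH n A C₀ * η) * (dist x y / √(ρ ^ 2)) * (‖c‖ * ‖c'‖) := by gcongr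
  · intro s x hx c hs hsQ
    have hs0 : 0 < s := hρ2.trans_le hs
    rw [hf_gam h hu hs0]
    refine (hu.gam x (hball x hx) s ?_ hsQ c).trans ?_
    · rw [div_le_iff₀ (by linarith)]
      nlinarith
    · gcongr

/-- the memory form of `Voc.lean` -/
theorem hf_Nt (hη : 0 ≤ η) (hQ : 8 * A ^ 2 ≤ Q) (he : 0 < e) {t : ℝ} (ht : 0 < t)
    (htQ : t ≤ Q * ρ ^ 2) {x : M} (hx : x ∈ ball o (R * ρ)) (c d : E n) :
    (hf m K p u).Nb (ρ ^ 2) Q A₀ e t x c d = Nt m K p u Q A₀ ρ e t x c d := by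
  have hH := hf_hyp h hu hη (C₀ := 1) le_rfl hQ (le_refl R)
  rw [hH.Nb_eq he ht htQ hx]
  unfold Nt
  congr 1
  refine intervalIntegral.integral_congr fun s hs => ?_
  rw [uIcc_of_le htQ] at hs
  rw [hf_gam h hu (ht.trans_le hs.1)]

theorem hf_small {ε' : ℝ} (hQ1 : 1 ≤ Q) (hT : TT m K o p R' Q ε' ρ u) {t : ℝ} (ht : 0 < t) {x : M}
    (hx : x ∈ ball o (R' * ρ)) : (hf m K p u).Small (ρ ^ 2) ε' t x := by
  intro s hts hsT c
  have hs0 : 0 < s := ht.trans_le hts
  rw [hf_gam h hu hs0, hf_G h hu hs0]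
  exact hT x hx s hs0 (hsT.trans (by nlinarith [sq_nonneg ρ])) c

end

/-- **Block H234.** -/
theorem blk_H234 : Blk_H234.{u} := by
  intro M _ _ _ _ _ m n K o A p h C₀ hC₀
  have hA := h.kb.one_le
  have hA2 : 1 ≤ A ^ 2 := one_le_pow₀ hA
  have hcH := one_le_cH (n := n) hA (show 0 ≤ C₀ by linarith)
  have hn1 : (2 : ℝ) ≤ n := by exact_mod_cast h.hyp.two_le
  set D := cH n A C₀ with hD
  refine ⟨8 * A ^ 2, by linarith, fun Q hQ => ⟨1, le_rfl, fun R hR => ?_⟩⟩
  refine ⟨2 * D + 4 * A ^ 2 + 3, by linarith, fun Λ hΛ => ?_⟩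
  refine ⟨4 * D * (2 * Λ ^ 2) ^ ((n : ℝ) / 2) + 1, by
    have : 0 ≤ 4 * D * (2 * Λ ^ 2) ^ ((n : ℝ) / 2) := by positivity
    linarith, fun ε hε => ?_⟩
  refine ⟨min (1 / 16) (ε / 14), by positivity, fun A₀ hA₀ hA₁ => ?_⟩
  have hQ0 : 0 < Q := by nlinarith
  have hQ1 : 1 ≤ Q := by nlinarith
  have hA16 : A₀ ≤ 1 / 16 := hA₁.trans (min_le_left _ _)
  have hAε : A₀ ≤ ε / 14 := hA₁.trans (min_le_right _ _)
  refine ⟨A₀ / (Q * (12 * n * D)), by positivity, ?_⟩
  intro ε' η ρ hε'0 hε' hη0 hη hρ u uu hu hT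
  have hε16 : ε' ≤ 1 / 16 := hε'.trans (min_le_left _ _)
  have hεε : ε' ≤ ε / 14 := hε'.trans (min_le_right _ _)
  have hρ0 := hu.ρ_pos
  have hρ2 : 0 < ρ ^ 2 := by positivity
  have hTQ : ρ ^ 2 ≤ Q * ρ ^ 2 := by nlinarith
  have hH := hf_hyp h hu hη0.le hC₀ hQ (R' := R / 4) (by linarith)
  rw [← hD] at hH
  have hq : HF.Par Q (12 * n * D * η) A₀ (1 / 4) := by
    refine ⟨by norm_num, by norm_num, ?_, by linarith⟩
    rw [le_div_iff₀ (by positivity)] at hη
    nlinarith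
  have hη8 : 12 * n * D * η ≤ 1 / 8 := (hH.η_le hq).trans (by linarith)
  have hsub : ∀ x ∈ ball o (R / 4 * ρ), x ∈ ball o (R / 2 * ρ) ∧ x ∈ ball o (R * ρ) := by
    intro x hx
    rw [mem_ball] at hx
    constructor <;> rw [mem_ball] <;> nlinarith
  have hS : ∀ x ∈ ball o (R / 4 * ρ), ∀ t, 0 < t → (hf m K p u).Small (ρ ^ 2) ε' t x :=
    fun x hx t ht => hf_small h hu hQ1 hT ht (hsub x hx).1
  have eN : ∀ x ∈ ball o (R / 4 * ρ), ∀ t, 0 < t → t ≤ ρ ^ 2 → ∀ c d : E n,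
      Nt m K p u Q A₀ ρ (1 / 4) t x c d = (hf m K p u).Nb (ρ ^ 2) Q A₀ (1 / 4) t x c d :=
    fun x hx t ht htT c d => (hf_Nt h hu hη0.le hQ (by norm_num) ht (htT.trans hTQ)
      (hsub x hx).2 c d).symm
  have eG : ∀ (x : M) (t : ℝ), 0 < t → ∀ c d : E n,
      Gm m p u t x c d = (hf m K p u).G t x c d := fun x t ht c d => (hf_G h hu ht x c d).symm
  refine ⟨?_, ?_, ?_, ?_, ?_, ?_, ?_, ?_, ?_, ?_⟩
  · intro x hx t ht htT
    exact sb_Gm h hu ht x
  · intro x hx t ht htT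
    have e1 : Nt m K p u Q A₀ ρ (1 / 4) t x =
        fun c d => (hf m K p u).Nb (ρ ^ 2) Q A₀ (1 / 4) t x c d := by
      funext c d
      exact eN x hx t ht htT c d
    rw [e1]
    refine ⟨fun c d => hH.Nb_symm (by norm_num) ht (htT.trans hTQ) hx c d, fun a b d => ?_,
      fun r a d => ?_⟩
    · simp only [map_add, LinearMap.add_apply]
    · simp only [map_smul, LinearMap.smul_apply, smul_eq_mul]
  · intro x hx t ht htT c hc
    rw [eG x t ht]
    exact hH.G_pos (by linarith) hη8 ht htT hx (hS x hx t ht) hc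
  · intro x hx t ht htT c
    rw [eN x hx t ht htT]
    exact hH.Nb_nonneg hq ht (htT.trans hTQ) hx c
  · intro x hx t ht htT c d
    have hΛ2 : 1 ≤ Λ ^ 2 := one_le_pow₀ (by linarith)
    have ht' : 0 < t / Λ ^ 2 := by positivity
    have htt : t / Λ ^ 2 ≤ t := div_le_self ht.le hΛ2
    rw [eG x t ht, eG x _ ht', eN x hx t ht htT, eN x hx t ht htT]
    have h1 := hH.F2 hq ht' htt htT hx c d
    have e2 : 2 * t / (t / Λ ^ 2) = 2 * Λ ^ 2 := by field_simp
    rw [e2] at h1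
    exact h1
  · intro x hx y hy t ht htT hxy c d
    rw [eG x t ht, eG y t ht, eN x hx t ht htT, eN x hx t ht htT]
    refine (hH.F3 hq ht htT hx hy hxy c d).trans ?_
    have : 0 ≤ dist x y / √t * (√((hf m K p u).Nb (ρ ^ 2) Q A₀ (1 / 4) t x c c) *
      √((hf m K p u).Nb (ρ ^ 2) Q A₀ (1 / 4) t x d d)) := by positivity
    nlinarith
  · intro x hx t ht htT c
    rw [eG x t ht, eN x hx t ht htT]
    have hG := hH.G_nonneg (by linarith) hη8 ht htT hx (hS x hx t ht) c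
    refine (hH.F4a hq hε'0.le (by linarith) ht htT hx (hS x hx t ht) c).trans ?_
    refine mul_le_mul_of_nonneg_right ?_ hG
    have : (2 : ℝ) / (1 / 4) = 8 := by norm_num
    rw [this]
    linarith
  · intro x hx y hy t ht htT hxy c
    rw [eN x hx t ht htT, eN y hy t ht htT]
    refine (hH.F4b hq ht htT hx hy hxy c).trans ?_
    refine mul_le_mul_of_nonneg_right ?_ (hH.Nb_nonneg hq ht (htT.trans hTQ) hx c)
    nlinarith
  · intro x hx t ht htT c
    have hΛ2 : 1 ≤ Λ ^ 2 := one_le_pow₀ (by linarith)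
    have ht' : 0 < t / Λ ^ 2 := by positivity
    have htt : t / Λ ^ 2 ≤ t := div_le_self ht.le hΛ2
    rw [eN x hx t ht htT, eN x hx _ ht' (htt.trans htT)]
    have h1 := hH.F4c hq ht' htt (htT.trans hTQ) hx c
    have e2 : t / (t / Λ ^ 2) = Λ ^ 2 := by field_simp
    have e3 : (Λ ^ 2) ^ (1 / 4 : ℝ) = √Λ := by
      rw [Real.sqrt_eq_rpow, ← Real.rpow_natCast, ← Real.rpow_mul (by linarith)]
      norm_num
    rw [e2, e3] at h1
    exact h1
  · intro x hx t t' ht htt htT c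
    rw [eG x t ht, eG x t' (ht.trans_le htt)]
    have hG := hH.G_nonneg (by linarith) hη8 (ht.trans_le htt) htT hx
      (hS x hx t' (ht.trans_le htt)) c
    refine (hH.F7 (by linarith) hη8 ht htt htT hx (hS x hx t' (ht.trans_le htt)) c).trans ?_
    refine mul_le_mul_of_nonneg_right ?_ hG
    linarith

end Vale.Agent.P242.H703
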