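import Vale.Agent.P242.H703.Hf3
import Mathlib.Analysis.Calculus.MeanValue

/-! P242, Part A: growth of `G`, (h4a), (h7), positivity (helper703). -/

open MeasureTheory Set intervalIntegral

universe u

namespace Vale.Agent.P242.H703

namespace HF

variable {n : ℕ} {X : Type u} [MetricSpace X] {H : HF n X} {Ω : Set X}
  {T Q C₀ C κ m η A₀ e : ℝ}

omit [MetricSpace X] in
theorem Small.mono {ε t s : ℝ} {x : X} (hS : H.Small T ε t x) (hts : t ≤ s) :
    H.Small T ε s x := fun σ h1 h2 c => hS σ (hts.trans h1) h2 c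

omit [MetricSpace X] in
theorem int_log {t T : ℝ} (he : 0 < e) (ht : 0 < t) (htT : t ≤ T) :
    ∫ s in t..T, (t / s) ^ (e / 2) / s ≤ 2 / e := by
  have hT : 0 < T := lt_of_lt_of_le ht htT
  have h0 : (0 : ℝ) ∉ uIcc t T := by
    rw [uIcc_of_le htT]
    intro h0
    linarith [h0.1]
  have e1 : ∫ s in t..T, (t / s) ^ (e / 2) / s =
      ∫ s in t..T, t ^ (e / 2) * s ^ (-(e / 2) - 1) := by
    refine intervalIntegral.integral_congr fun s hs => ?_
    rw [uIcc_of_le htT] at hs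
    have hs0 : 0 < s := lt_of_lt_of_le ht hs.1
    have e2 : s ^ (-(e / 2) - 1) = (s ^ (e / 2))⁻¹ / s := by
      rw [Real.rpow_sub hs0, Real.rpow_one, Real.rpow_neg hs0.le]
    rw [Real.div_rpow ht.le hs0.le, e2]
    ring
  have hne : -(e / 2) - 1 ≠ -1 := by
    intro h1
    linarith
  rw [e1, intervalIntegral.integral_const_mul, integral_rpow (Or.inr ⟨hne, h0⟩)]
  have e3 : -(e / 2) - 1 + 1 = -(e / 2) := by ring
  rw [e3]
  have h1 : t ^ (e / 2) * t ^ (-(e / 2)) = 1 := by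
    rw [← Real.rpow_add ht]
    simp
  have h2 : 0 ≤ t ^ (e / 2) * T ^ (-(e / 2)) := by positivity
  have h3 : t ^ (e / 2) * ((T ^ (-(e / 2)) - t ^ (-(e / 2))) / (-(e / 2))) =
      2 / e * (t ^ (e / 2) * t ^ (-(e / 2))) - 2 / e * (t ^ (e / 2) * T ^ (-(e / 2))) := by
    field_simp
    ring
  rw [h3, h1]
  have : 0 ≤ 2 / e * (t ^ (e / 2) * T ^ (-(e / 2))) := by positivity
  linarith

omit [MetricSpace X] in
theorem int_pow {t T : ℝ} (he : 0 < e) (he' : e ≤ 1 / 2) (ht : 0 < t) (htT : t ≤ T) :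
    ∫ s in t..T, (t / s) ^ e ≤ 2 * (T * (t / T) ^ e) := by
  have hT : 0 < T := lt_of_lt_of_le ht htT
  have e1 : ∫ s in t..T, (t / s) ^ e = ∫ s in t..T, t ^ e * s ^ (-e) := by
    refine intervalIntegral.integral_congr fun s hs => ?_
    rw [uIcc_of_le htT] at hs
    have hs0 : 0 < s := lt_of_lt_of_le ht hs.1
    rw [Real.div_rpow ht.le hs0.le, Real.rpow_neg hs0.le, div_eq_mul_inv]
  rw [e1, intervalIntegral.integral_const_mul, integral_rpow (Or.inl (by linarith))]
  have h1 : T ^ (-e + 1) = T / T ^ e := by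
    rw [show -e + 1 = 1 - e by ring, Real.rpow_sub hT, Real.rpow_one]
  have h2 : 0 ≤ t ^ (-e + 1) := by positivity
  have h3 : 0 ≤ t ^ e := by positivity
  have h4 : 0 < -e + 1 := by linarith
  have h5 : (-e + 1)⁻¹ ≤ 2 := by
    rw [inv_le_comm₀ h4 (by norm_num)]
    linarith
  calc t ^ e * ((T ^ (-e + 1) - t ^ (-e + 1)) / (-e + 1)) ≤ t ^ e * (T ^ (-e + 1) /
        (-e + 1)) := by
        refine mul_le_mul_of_nonneg_left ?_ h3
        exact div_le_div_of_nonneg_right (by linarith) h4.le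
    _ = (-e + 1)⁻¹ * (T * (t / T) ^ e) := by
        rw [h1, Real.div_rpow ht.le hT.le]
        field_simp
    _ ≤ 2 * (T * (t / T) ^ e) := by
        refine mul_le_mul_of_nonneg_right h5 (by positivity)

namespace Hyp

variable (h : H.Hyp Ω T Q C₀ C κ m η)
include h

/-- almost monotonicity of `s ↦ G_s` -/
theorem G_le {t s : ℝ} (ht : 0 < t) (hts : t ≤ s) (hsT : s ≤ T) {x : X} (hx : x ∈ Ω) (c : E n) :
    H.G t x c c ≤ H.G s x c c + η / T * ‖c‖ ^ 2 * s := by
  have hT := h.T_pos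
  have hη := h.η_nonneg
  have hT' : T ≤ Q * T := h.T_le
  have h1 := h.G_sub ht hts hsT hx c c
  have h2 : -(η / T * ‖c‖ ^ 2 * (s - t)) ≤ ∫ σ in t..s, (2 * H.gam σ x c c + H.tau σ x c c) := by
    have h3 : ∫ _ in t..s, -(η / T * ‖c‖ ^ 2) ≤
        ∫ σ in t..s, (2 * H.gam σ x c c + H.tau σ x c c) := by
      refine intervalIntegral.integral_mono_on hts intervalIntegrable_const
        (((h.gint hx c c ht (by linarith) (by linarith) (by linarith)).const_mul 2).add
          (h.tint hx c c ht (by linarith) (by linarith) hsT)) fun σ hσ => ?_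
      have hσ0 : 0 < σ := lt_of_lt_of_le ht hσ.1
      have e1 := h.gam_nonneg σ x hx c hσ0 (by linarith [hσ.2])
      have e2 := h.tau_bd σ x hx c c hσ0 (hσ.2.trans hsT)
      rw [abs_le] at e2
      have e3 : ‖c‖ * ‖c‖ = ‖c‖ ^ 2 := by ring
      rw [e3] at e2
      linarith [e2.1]
    rw [intervalIntegral.integral_const, smul_eq_mul] at h3
    linarith
  have h4 : 0 ≤ η / T * ‖c‖ ^ 2 * t := by positivity
  nlinarith

/-- (P1): growth of `G` under the near isometry condition -/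
theorem P1 {ε t s : ℝ} (hε' : ε ≤ 1 / 4) (ht : 0 < t) (hts : t ≤ s) (hsT : s ≤ T)
    {x : X} (hx : x ∈ Ω) (hS : H.Small T ε t x) (c : E n) :
    H.G s x c c ≤ (s / t) ^ (2 * ε) * H.G t x c c + 2 * (η / T * ‖c‖ ^ 2) * s := by
  have hT := h.T_pos
  have hη := h.η_nonneg
  have hs : 0 < s := lt_of_lt_of_le ht hts
  set a := η / T * ‖c‖ ^ 2 with ha
  have ha0 : 0 ≤ a := by positivity
  have h12 : 0 < 1 - 2 * ε := by linarith
  set f : ℝ → ℝ := fun σ => σ ^ (-(2 * ε)) * H.G σ x c c - a / (1 - 2 * ε) * σ ^ (1 - 2 * ε)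
    with hf
  have hder : ∀ σ, t ≤ σ → σ ≤ T → HasDerivAt f
      (((-(2 * ε)) * σ ^ (-(2 * ε) - 1)) * H.G σ x c c +
        σ ^ (-(2 * ε)) * (2 * H.gam σ x c c + H.tau σ x c c) -
        a / (1 - 2 * ε) * ((1 - 2 * ε) * σ ^ ((1 - 2 * ε) - 1))) σ := by
    intro σ h1 h2
    have hσ : 0 < σ := lt_of_lt_of_le ht h1
    have d1 := Real.hasDerivAt_rpow_const (x := σ) (p := -(2 * ε)) (Or.inl hσ.ne')
    have d2 := h.deriv σ x hx c c hσ h2
    have d3 := Real.hasDerivAt_rpow_const (x := σ) (p := 1 - 2 * ε) (Or.inl hσ.ne')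
    exact (d1.mul d2).sub (d3.const_mul _)
  have hanti : AntitoneOn f (Icc t s) := by
    refine antitoneOn_of_hasDerivWithinAt_nonpos (convex_Icc t s) ?_ (f' := fun σ =>
      (((-(2 * ε)) * σ ^ (-(2 * ε) - 1)) * H.G σ x c c +
        σ ^ (-(2 * ε)) * (2 * H.gam σ x c c + H.tau σ x c c) -
        a / (1 - 2 * ε) * ((1 - 2 * ε) * σ ^ ((1 - 2 * ε) - 1)))) ?_ ?_
    · intro σ hσ
      exact (hder σ hσ.1 (hσ.2.trans hsT)).continuousAt.continuousWithinAt
    · intro σ hσ
      rw [interior_Icc] at hσ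
      exact (hder σ hσ.1.le (hσ.2.le.trans hsT)).hasDerivWithinAt
    · intro σ hσ
      rw [interior_Icc] at hσ
      have hσ0 : 0 < σ := lt_trans ht hσ.1
      have e1 := hS σ hσ.1.le (hσ.2.le.trans hsT) c
      have e2 := h.tau_bd σ x hx c c hσ0 (hσ.2.le.trans hsT)
      rw [abs_le] at e2
      have e3 : ‖c‖ * ‖c‖ = ‖c‖ ^ 2 := by ring
      rw [e3] at e2
      have e4 : σ ^ (-(2 * ε) - 1) = σ ^ (-(2 * ε)) / σ := by
        rw [Real.rpow_sub hσ0, Real.rpow_one]
      have e5 : σ ^ ((1 - 2 * ε) - 1) = σ ^ (-(2 * ε)) := by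
        congr 1
        ring
      have e6 : a / (1 - 2 * ε) * ((1 - 2 * ε) * σ ^ (-(2 * ε))) = a * σ ^ (-(2 * ε)) := by
        field_simp
      rw [e4, e5, e6]
      have e7 : 0 < σ ^ (-(2 * ε)) := Real.rpow_pos_of_pos hσ0 _
      have e8 : H.gam σ x c c ≤ ε * H.G σ x c c / σ := by
        rw [le_div_iff₀ hσ0]
        linarith
      have e9 : -(2 * ε) * (σ ^ (-(2 * ε)) / σ) * H.G σ x c c +
          σ ^ (-(2 * ε)) * (2 * H.gam σ x c c + H.tau σ x c c) - a * σ ^ (-(2 * ε)) =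
          σ ^ (-(2 * ε)) * (2 * (H.gam σ x c c - ε * H.G σ x c c / σ) +
            (H.tau σ x c c - a)) := by
        field_simp
        ring
      rw [e9]
      refine mul_nonpos_of_nonneg_of_nonpos e7.le ?_
      linarith [e2.2]
  have h1 := hanti (left_mem_Icc.mpr hts) (right_mem_Icc.mpr hts) hts
  simp only [hf] at h1
  have h2 : 0 ≤ a / (1 - 2 * ε) * t ^ (1 - 2 * ε) := by positivity
  have h3 : s ^ (-(2 * ε)) * H.G s x c c ≤
      t ^ (-(2 * ε)) * H.G t x c c + a / (1 - 2 * ε) * s ^ (1 - 2 * ε) := by linarith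
  have hs2 : 0 < s ^ (2 * ε) := Real.rpow_pos_of_pos hs _
  have h4 := mul_le_mul_of_nonneg_left h3 hs2.le
  have e1 : s ^ (2 * ε) * (s ^ (-(2 * ε)) * H.G s x c c) = H.G s x c c := by
    rw [← mul_assoc, ← Real.rpow_add hs]
    simp
  have e2 : s ^ (2 * ε) * (t ^ (-(2 * ε)) * H.G t x c c + a / (1 - 2 * ε) * s ^ (1 - 2 * ε)) =
      (s / t) ^ (2 * ε) * H.G t x c c + a / (1 - 2 * ε) * s := by
    rw [mul_add, Real.div_rpow hs.le ht.le, Real.rpow_neg ht.le]
    have : s ^ (2 * ε) * s ^ (1 - 2 * ε) = s := by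
      rw [← Real.rpow_add hs]
      simp
    linear_combination a / (1 - 2 * ε) * this
  rw [e1, e2] at h4
  have h5 : a / (1 - 2 * ε) ≤ 2 * a := by
    rw [div_le_iff₀ h12]
    nlinarith
  nlinarith

/-- lower bound of `G` under the near isometry condition: for `2 ε ≤ a`, `η ≤ 1/8` -/
theorem G_lower {ε t a : ℝ} (hε' : ε ≤ 1 / 4) (ha : 2 * ε ≤ a) (hη' : η ≤ 1 / 8) (ht : 0 < t)
    (htT : t ≤ T) {x : X} (hx : x ∈ Ω) (hS : H.Small T ε t x) (c : E n) :
    (t / T) ^ a * ‖c‖ ^ 2 ≤ 2 * H.G t x c c := by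
  have hT := h.T_pos
  have hη := h.η_nonneg
  have h1 := h.P1 hε' ht htT le_rfl hx hS c
  have h2 := h.top x hx c
  rw [abs_le] at h2
  have e1 : 2 * (η / T * ‖c‖ ^ 2) * T = 2 * η * ‖c‖ ^ 2 := by
    field_simp
  rw [e1] at h1
  have hc : 0 ≤ ‖c‖ ^ 2 := by positivity
  have h3 : (1 / 2) * ‖c‖ ^ 2 ≤ (T / t) ^ (2 * ε) * H.G t x c c := by
    nlinarith [h2.1]
  have hTt : 1 ≤ T / t := (one_le_div ht).mpr htT
  have hp : 0 < (T / t) ^ (2 * ε) := Real.rpow_pos_of_pos (by positivity) _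
  have hG : 0 ≤ H.G t x c c := by
    by_contra hneg
    push Not at hneg
    have := mul_neg_of_pos_of_neg hp hneg
    linarith
  have h4 : (T / t) ^ (2 * ε) ≤ (T / t) ^ a :=
    Real.rpow_le_rpow_of_exponent_le hTt ha
  have h5 : (1 / 2) * ‖c‖ ^ 2 ≤ (T / t) ^ a * H.G t x c c :=
    h3.trans (mul_le_mul_of_nonneg_right h4 hG)
  have h6 : (t / T) ^ a * (T / t) ^ a = 1 := by
    rw [← Real.mul_rpow (by positivity) (by positivity)]
    rw [div_mul_div_comm, mul_comm, div_self (by positivity), Real.one_rpow]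
  have h7 := mul_le_mul_of_nonneg_left h5
    (Real.rpow_nonneg (by positivity : 0 ≤ t / T) a)
  rw [← mul_assoc, ← mul_assoc, h6, one_mul] at h7
  linarith

theorem G_nonneg {ε t : ℝ} (hε' : ε ≤ 1 / 4) (hη' : η ≤ 1 / 8) (ht : 0 < t) (htT : t ≤ T)
    {x : X} (hx : x ∈ Ω) (hS : H.Small T ε t x) (c : E n) : 0 ≤ H.G t x c c := by
  have hT := h.T_pos
  have := h.G_lower hε' le_rfl hη' ht htT hx hS c
  have h2 : 0 ≤ (t / T) ^ (2 * ε) * ‖c‖ ^ 2 := by positivity
  linarith

theorem G_pos {ε t : ℝ} (hε' : ε ≤ 1 / 4) (hη' : η ≤ 1 / 8) (ht : 0 < t) (htT : t ≤ T)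
    {x : X} (hx : x ∈ Ω) (hS : H.Small T ε t x) {c : E n} (hc : c ≠ 0) :
    0 < H.G t x c c := by
  have hT := h.T_pos
  have := h.G_lower hε' le_rfl hη' ht htT hx hS c
  have h2 : 0 < (t / T) ^ (2 * ε) * ‖c‖ ^ 2 := by
    have : 0 < ‖c‖ := norm_pos_iff.mpr hc
    positivity
  linarith

/-- (F7) -/
theorem F7 {ε t s : ℝ} (hε' : ε ≤ 1 / 4) (hη' : η ≤ 1 / 8) (ht : 0 < t) (hts : t ≤ s)
    (hsT : s ≤ T) {x : X} (hx : x ∈ Ω) (hS : H.Small T ε s x) (c : E n) :
    H.G t x c c ≤ (1 + 2 * η) * H.G s x c c := by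
  have hT := h.T_pos
  have hη := h.η_nonneg
  have hs : 0 < s := lt_of_lt_of_le ht hts
  have h1 := h.G_le ht hts hsT hx c
  have h2 := h.G_lower hε' (a := 1) (by linarith) hη' hs hsT hx hS c
  rw [Real.rpow_one] at h2
  have h3 : η / T * ‖c‖ ^ 2 * s ≤ η * (2 * H.G s x c c) := by
    calc η / T * ‖c‖ ^ 2 * s = η * (s / T * ‖c‖ ^ 2) := by ring
      _ ≤ η * (2 * H.G s x c c) := by gcongr
  linarith

/-- (F4a) -/
theorem F4a (q : Par Q η A₀ e) {ε t : ℝ} (hε : 0 ≤ ε) (hε' : 4 * ε ≤ e) (ht : 0 < t)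
    (htT : t ≤ T) {x : X} (hx : x ∈ Ω) (hS : H.Small T ε t x) (c : E n) :
    H.Nb T Q A₀ e t x c c ≤ (2 / e * ε + 6 * A₀) * H.G t x c c := by
  have hT := h.T_pos
  have hη := h.η_nonneg
  have hTQ := h.T_le
  have hQT := h.QT_pos
  have he := q.e_pos
  have he2 := q.e_le
  have hA := h.A₀_nonneg q
  have hA8 := q.A₀_le
  have hηA := h.η_le q
  have hQ := h.Q_ge
  have hG := h.G_nonneg (by linarith) (by linarith) ht htT hx hS c
  have htQ : t ≤ Q * T := htT.trans hTQ
  set a := η / T * ‖c‖ ^ 2 with ha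
  have ha0 : 0 ≤ a := by positivity
  set V := (t / T) ^ e * ‖c‖ ^ 2 with hV
  have hV0 : 0 ≤ V := by positivity
  rw [h.Nb_self he ht htQ hx]
  have hsplit : ∫ s in t..(Q * T), (t / s) ^ e * H.gam s x c c =
      (∫ s in t..T, (t / s) ^ e * H.gam s x c c) +
      ∫ s in T..(Q * T), (t / s) ^ e * H.gam s x c c :=
    (intervalIntegral.integral_add_adjacent_intervals
      (h.wint he t hx c c ht htQ hT hTQ)
      (h.wint he t hx c c hT hTQ hQT le_rfl)).symm
  have hsub : uIcc t T ⊆ Ioc 0 T := uIcc_sub ht htT hT le_rfl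
  have h1 : ∫ s in t..T, (t / s) ^ e * H.gam s x c c ≤
      2 / e * ε * H.G t x c c + A₀ * V := by
    have hcont1 : ContinuousOn (fun s : ℝ => (t / s) ^ (e / 2) / s) (uIcc t T) := by
      refine ContinuousOn.div ?_ continuousOn_id fun s hs => (hsub hs).1.ne'
      exact (wcont' (by linarith) t).mono hsub
    have hcont2 : ContinuousOn (fun s : ℝ => (t / s) ^ e) (uIcc t T) :=
      (wcont' he t).mono hsub
    have h2 : ∫ s in t..T, (t / s) ^ e * H.gam s x c c ≤
        ∫ s in t..T, ((ε * H.G t x c c) * ((t / s) ^ (e / 2) / s) +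
          (2 * a * ε) * (t / s) ^ e) := by
      refine intervalIntegral.integral_mono_on htT
        (h.wint he t hx c c ht htQ hT hTQ) ?_ fun s hs => ?_
      · exact ((hcont1.const_mul _).add (hcont2.const_mul _)).intervalIntegrable
      · have hs0 : 0 < s := lt_of_lt_of_le ht hs.1
        have e1 := hS s hs.1 hs.2 c
        have e2 := h.P1 (by linarith) ht hs.1 hs.2 hx hS c
        have hw : 0 ≤ (t / s) ^ e := by positivity
        have e3 : H.gam s x c c ≤ ε / s * ((s / t) ^ (2 * ε) * H.G t x c c + 2 * a * s) := by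
          rw [div_mul_eq_mul_div, le_div_iff₀ hs0]
          nlinarith
        have e4 : (t / s) ^ e * (s / t) ^ (2 * ε) ≤ (t / s) ^ (e / 2) := by
          have e5 : (s / t) ^ (2 * ε) = (t / s) ^ (-(2 * ε)) := by
            rw [Real.rpow_neg (by positivity), ← Real.inv_rpow (by positivity), inv_div]
          rw [e5, ← Real.rpow_add (by positivity)]
          exact Real.rpow_le_rpow_of_exponent_ge (by positivity) ((div_le_one hs0).mpr hs.1)
            (by linarith)
        calc (t / s) ^ e * H.gam s x c c ≤ (t / s) ^ e *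
            (ε / s * ((s / t) ^ (2 * ε) * H.G t x c c + 2 * a * s)) :=
              mul_le_mul_of_nonneg_left e3 hw
          _ = (ε * H.G t x c c / s) * ((t / s) ^ e * (s / t) ^ (2 * ε)) +
              (2 * a * ε) * (t / s) ^ e := by
              field_simp
          _ ≤ (ε * H.G t x c c / s) * (t / s) ^ (e / 2) +
              (2 * a * ε) * (t / s) ^ e := by gcongr
          _ = _ := by ring
    rw [intervalIntegral.integral_add
      (hcont1.const_mul (ε * H.G t x c c)).intervalIntegrable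
      (hcont2.const_mul (2 * a * ε)).intervalIntegrable, intervalIntegral.integral_const_mul,
      intervalIntegral.integral_const_mul] at h2
    have h3 := int_log he ht htT
    have h4 := int_pow he he2 ht htT
    have h5 : (ε * H.G t x c c) * (∫ s in t..T, (t / s) ^ (e / 2) / s) ≤
        (ε * H.G t x c c) * (2 / e) := mul_le_mul_of_nonneg_left h3 (by positivity)
    have h6 : (2 * a * ε) * (∫ s in t..T, (t / s) ^ e) ≤
        (2 * a * ε) * (2 * (T * (t / T) ^ e)) :=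
      mul_le_mul_of_nonneg_left h4 (by positivity)
    have h7 : (2 * a * ε) * (2 * (T * (t / T) ^ e)) = 4 * ε * (η * V) := by
      rw [ha, hV]
      field_simp
      ring
    have h8 : 4 * ε * (η * V) ≤ A₀ * V := by
      have : 0 ≤ η * V := by positivity
      calc 4 * ε * (η * V) ≤ 1 * (η * V) := by
            refine mul_le_mul_of_nonneg_right (by linarith) this
        _ ≤ A₀ * V := by rw [one_mul]; gcongr
    have h9 : (ε * H.G t x c c) * (2 / e) = 2 / e * ε * H.G t x c c := by ring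
    linarith
  have h5 : ∫ s in T..(Q * T), (t / s) ^ e * H.gam s x c c ≤ A₀ * V := by
    have h6 : ∫ s in T..(Q * T), (t / s) ^ e * H.gam s x c c ≤
        ∫ _ in T..(Q * T), (t / T) ^ e * (η * ‖c‖ ^ 2 / T) := by
      refine intervalIntegral.integral_mono_on hTQ
        (h.wint he t hx c c hT hTQ hQT le_rfl) intervalIntegrable_const fun s hs => ?_
      have hs0 : 0 < s := lt_of_lt_of_le hT hs.1
      have hg := h.top_gam s x hx c hs.1 hs.2
      have hg0 := h.gam_nonneg s x hx c hs0 hs.2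
      refine mul_le_mul ?_ ?_ hg0 (Real.rpow_nonneg (by positivity) _)
      · refine Real.rpow_le_rpow (by positivity) ?_ he.le
        exact div_le_div_of_nonneg_left ht.le hT hs.1
      · rw [le_div_iff₀ hT]
        nlinarith [hs.1]
    rw [intervalIntegral.integral_const, smul_eq_mul] at h6
    refine h6.trans ?_
    have hw : 0 ≤ (t / T) ^ e := Real.rpow_nonneg (by positivity) _
    calc (Q * T - T) * ((t / T) ^ e * (η * ‖c‖ ^ 2 / T)) ≤
        (Q * T) * ((t / T) ^ e * (η * ‖c‖ ^ 2 / T)) :=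
          mul_le_mul_of_nonneg_right (by linarith) (by positivity)
      _ = (Q * η) * V := by
          rw [hV]
          field_simp
      _ ≤ A₀ * V := by
          refine mul_le_mul_of_nonneg_right q.Qη hV0
  have h6 : A₀ * (t / T) ^ e * ‖c‖ ^ 2 = A₀ * V := by
    rw [hV]
    ring
  have h7 : V ≤ 2 * H.G t x c c :=
    h.G_lower (by linarith) (by linarith) (by linarith) ht htT hx hS c
  have h8 : A₀ * V ≤ A₀ * (2 * H.G t x c c) := by gcongr
  rw [hsplit, h6]
  linarith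

end Hyp

end HF

end Vale.Agent.P242.H703
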