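import Mathlib.Analysis.InnerProductSpace.PiL2
import Mathlib.MeasureTheory.Integral.IntervalIntegral.FundThmCalculus
import Mathlib.Analysis.SpecialFunctions.Pow.Real
import Mathlib.Analysis.SpecialFunctions.Pow.Continuity
import Mathlib.MeasureTheory.Integral.IntervalIntegral.Basic

/-! P242, Part A, (h2), (h3), (h4), (h7): definitions (helper703). -/

open MeasureTheory Set intervalIntegral

universe u

namespace Vale.Agent.P242.H703

/-- the parameter space `ℝⁿ` of the linear family of maps `u_c` -/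
abbrev E (n : ℕ) : Type := EuclideanSpace ℝ (Fin n)

/-- Heat flow data on the parameter space: `G s x c c' = P_s Γ(u_c, u_c') (x)`,
`gam s x c c' = γ_s(u_c, u_c')(x)` (heat-regularised `Γ₂`), and the lower order term `tau`
(`d/ds G = 2 gam + tau`). -/
structure HF (n : ℕ) (X : Type u) where
  G : ℝ → X → E n →ₗ[ℝ] E n →ₗ[ℝ] ℝ
  gam : ℝ → X → E n →ₗ[ℝ] E n →ₗ[ℝ] ℝ
  tau : ℝ → X → E n →ₗ[ℝ] E n →ₗ[ℝ] ℝ

namespace HF

variable {n : ℕ} {X : Type u}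

/-- Hypotheses on the heat flow data at the points of `Ω` (`T = ρ²` is the top scale; all times are
`≤ Q T`). -/
structure Hyp [MetricSpace X] (H : HF n X) (Ω : Set X) (T Q C₀ C κ m η : ℝ) : Prop where
  T_pos : 0 < T
  C₀_pos : 0 < C₀
  one_le_C : 1 ≤ C
  one_le_κ : 1 ≤ κ
  two_κ_le : 2 * κ ≤ Q
  m_nonneg : 0 ≤ m
  η_nonneg : 0 ≤ η
  gam_symm : ∀ s, ∀ x ∈ Ω, ∀ c c', 0 < s → s ≤ Q * T → H.gam s x c c' = H.gam s x c' c
  gam_nonneg : ∀ s, ∀ x ∈ Ω, ∀ c, 0 < s → s ≤ Q * T → 0 ≤ H.gam s x c c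
  gam_cont : ∀ x ∈ Ω, ∀ c c', ContinuousOn (fun s => H.gam s x c c') (Ioc 0 (Q * T))
  tau_cont : ∀ x ∈ Ω, ∀ c c', ContinuousOn (fun s => H.tau s x c c') (Ioc 0 T)
  G_symm : ∀ s, ∀ x ∈ Ω, ∀ c c', 0 < s → s ≤ T → H.G s x c c' = H.G s x c' c
  harnack : ∀ s s', ∀ x ∈ Ω, ∀ y ∈ Ω, ∀ c, 0 < s → s ≤ s' → κ * s' ≤ Q * T →
    dist x y ≤ C₀ * √s → H.gam s y c c ≤ C * (s' / s) ^ m * H.gam (κ * s') x c c
  lip : ∀ s, ∀ x ∈ Ω, ∀ y ∈ Ω, ∀ c c', 0 < s → s ≤ T → dist x y ≤ C₀ * √s →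
    |H.gam s x c c' - H.gam s y c c'| ≤
      C * (dist x y / √s) * (√(H.gam (κ * s) x c c) * √(H.gam (κ * s) x c' c'))
  deriv : ∀ s, ∀ x ∈ Ω, ∀ c c', 0 < s → s ≤ T →
    HasDerivAt (fun s => H.G s x c c') (2 * H.gam s x c c' + H.tau s x c c') s
  tau_bd : ∀ s, ∀ x ∈ Ω, ∀ c c', 0 < s → s ≤ T → |H.tau s x c c'| ≤ η / T * (‖c‖ * ‖c'‖)
  tau_lip : ∀ s, ∀ x ∈ Ω, ∀ y ∈ Ω, ∀ c c', 0 < s → s ≤ T → dist x y ≤ C₀ * √s →
    |H.tau s x c c' - H.tau s y c c'| ≤ η / T * (dist x y / √s) * (‖c‖ * ‖c'‖)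
  top : ∀ x ∈ Ω, ∀ c, |H.G T x c c - ‖c‖ ^ 2| ≤ η * ‖c‖ ^ 2
  top_lip : ∀ x ∈ Ω, ∀ y ∈ Ω, ∀ c c', dist x y ≤ C₀ * √T →
    |H.G T x c c' - H.G T y c c'| ≤ η * (dist x y / √T) * (‖c‖ * ‖c'‖)
  top_gam : ∀ s, ∀ x ∈ Ω, ∀ c, T ≤ s → s ≤ Q * T → s * H.gam s x c c ≤ η * ‖c‖ ^ 2

/-- the parameters of the memory form -/
structure Par (Q η A₀ e : ℝ) : Prop where
  e_pos : 0 < e
  e_le : e ≤ 1 / 2
  Qη : Q * η ≤ A₀
  A₀_le : A₀ ≤ 1 / 8

/-- near isometry condition `(T)` at `x` for the scales `[t, T]` -/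
def Small (H : HF n X) (T ε t : ℝ) (x : X) : Prop :=
  ∀ s, t ≤ s → s ≤ T → ∀ c, s * H.gam s x c c ≤ ε * H.G s x c c

/-- the memory form `N_t(x)(c,c') = ∫_t^{QT} (t/s)^e γ_s(x)(c,c') ds + A₀ (t/T)^e ⟨c,c'⟩`
(`t = t_k = r_k²`) -/
noncomputable def Nb (H : HF n X) (T Q A₀ e t : ℝ) (x : X) : E n →ₗ[ℝ] E n →ₗ[ℝ] ℝ :=
  LinearMap.mk₂ ℝ (fun c c' : E n => (∑ i, ∑ j, c i * c' j *
      (∫ s in t..(Q * T), (t / s) ^ e *
        H.gam s x (EuclideanSpace.single i 1) (EuclideanSpace.single j 1))) +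
      A₀ * (t / T) ^ e * inner ℝ c c')
    (by
      intro a b c
      simp only [PiLp.add_apply, add_mul, Finset.sum_add_distrib, inner_add_left, mul_add]
      ring)
    (by
      intro r a b
      simp only [PiLp.smul_apply, smul_eq_mul, inner_smul_left, mul_add, Finset.mul_sum]
      congr 1
      · refine Finset.sum_congr rfl fun i _ => Finset.sum_congr rfl fun j _ => ?_
        ring
      · simp
        ring)
    (by
      intro a b c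
      simp only [PiLp.add_apply, add_mul, mul_add, Finset.sum_add_distrib, inner_add_right]
      ring)
    (by
      intro r a b
      simp only [PiLp.smul_apply, smul_eq_mul, inner_smul_right, mul_add, Finset.mul_sum]
      congr 1
      · refine Finset.sum_congr rfl fun i _ => Finset.sum_congr rfl fun j _ => ?_
        ring
      · ring)

theorem Nb_apply (H : HF n X) (T Q A₀ e t : ℝ) (x : X) (c c' : E n) :
    H.Nb T Q A₀ e t x c c' = (∑ i, ∑ j, c i * c' j *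
      (∫ s in t..(Q * T), (t / s) ^ e *
        H.gam s x (EuclideanSpace.single i 1) (EuclideanSpace.single j 1))) +
      A₀ * (t / T) ^ e * inner ℝ c c' := rfl

end HF

end Vale.Agent.P242.H703
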