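import Vale.Agent.P242.H703.Hf0
import Mathlib.Analysis.SpecialFunctions.Integrals.Basic
import Mathlib.Analysis.Calculus.Deriv.MeanValue
import Mathlib.Analysis.SpecialFunctions.Pow.Deriv

/-! P242, Part A, (h2), (h3), (h4), (h7): basic lemmas (helper703). -/

open MeasureTheory Set intervalIntegral

universe u

namespace Vale.Agent.P242.H703

/-- Cauchy-Schwarz for a nonnegative symmetric form -/
theorem cs_form {V : Type*} [AddCommGroup V] [Module ℝ V] (B : V →ₗ[ℝ] V →ₗ[ℝ] ℝ)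
    (hs : ∀ v w, B v w = B w v) (hp : ∀ v, 0 ≤ B v v) (v w : V) :
    |B v w| ≤ √(B v v) * √(B w w) := by
  have key : ∀ r : ℝ, 0 ≤ B v v * (r * r) + (2 * B v w) * r + B w w := by
    intro r
    have := hp (r • v + w)
    simp only [map_add, map_smul, LinearMap.add_apply, LinearMap.smul_apply, smul_eq_mul] at this
    rw [hs w v] at this
    nlinarith [this]
  have hd := discrim_le_zero key
  rw [discrim] at hd
  rw [← Real.sqrt_mul (hp v)]
  apply Real.abs_le_sqrt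
  nlinarith [hd]

/-- optimisation: `I ≤ (λ A + B / λ) / 2` for all `λ > 0` implies `I ≤ √A √B` -/
theorem le_sqrt_mul_of_forall {I A B : ℝ} (hA : 0 ≤ A) (hB : 0 ≤ B)
    (h : ∀ r : ℝ, 0 < r → I ≤ (r * A + B / r) / 2) : I ≤ √A * √B := by
  rcases hA.eq_or_lt with hA0 | hA0
  · rw [← hA0, Real.sqrt_zero, zero_mul]
    by_contra hI
    push Not at hI
    have h1 := h ((B + 1) / I) (by positivity)
    rw [← hA0, mul_zero, zero_add, div_div_eq_mul_div, div_div, le_div_iff₀ (by positivity)] at h1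
    nlinarith
  rcases hB.eq_or_lt with hB0 | hB0
  · rw [← hB0, Real.sqrt_zero, mul_zero]
    by_contra hI
    push Not at hI
    have h1 := h (I / A) (by positivity)
    rw [← hB0, zero_div, add_zero, div_mul_cancel₀ _ hA0.ne'] at h1
    linarith
  have hsA : 0 < √A := Real.sqrt_pos.mpr hA0
  have hsB : 0 < √B := Real.sqrt_pos.mpr hB0
  have h1 := h (√B / √A) (by positivity)
  have h2 : √B / √A * A = √A * √B := by
    have : A = √A * √A := (Real.mul_self_sqrt hA).symm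
    rw [div_mul_eq_mul_div, div_eq_iff hsA.ne']
    nlinarith
  have h3 : B / (√B / √A) = √A * √B := by
    have : B = √B * √B := (Real.mul_self_sqrt hB).symm
    rw [div_div_eq_mul_div, div_eq_iff hsB.ne']
    nlinarith
  rw [h2, h3] at h1
  linarith

/-- weighted arithmetic-geometric mean -/
theorem sqrt_mul_sqrt_le {A B : ℝ} (hA : 0 ≤ A) (hB : 0 ≤ B) {r : ℝ} (hr : 0 < r) :
    √A * √B ≤ (r * A + B / r) / 2 := by
  have h1 : r * A = (√r * √A) ^ 2 := by
    rw [mul_pow, Real.sq_sqrt hr.le, Real.sq_sqrt hA]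
  have h2 : B / r = (√B / √r) ^ 2 := by
    rw [div_pow, Real.sq_sqrt hr.le, Real.sq_sqrt hB]
  have h3 : √A * √B = (√r * √A) * (√B / √r) := by
    have : 0 < √r := Real.sqrt_pos.mpr hr
    field_simp
  rw [h1, h2, h3]
  nlinarith [sq_nonneg (√r * √A - √B / √r)]

namespace HF

variable {n : ℕ} {X : Type u} [MetricSpace X] {H : HF n X} {Ω : Set X}
  {T Q C₀ C κ m η A₀ e : ℝ}

omit [MetricSpace X] in
theorem uIcc_sub {a b R : ℝ} (ha : 0 < a) (ha' : a ≤ R) (hb : 0 < b) (hb' : b ≤ R) :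
    uIcc a b ⊆ Ioc 0 R := by
  intro s hs
  rw [mem_uIcc] at hs
  rcases hs with hs | hs
  · exact ⟨by linarith [hs.1], by linarith [hs.2]⟩
  · exact ⟨by linarith [hs.1], by linarith [hs.2]⟩

omit [MetricSpace X] in
theorem form_expand (B : E n →ₗ[ℝ] E n →ₗ[ℝ] ℝ) (c c' : E n) :
    B c c' = ∑ i, ∑ j, c i * c' j *
      B (EuclideanSpace.single i 1) (EuclideanSpace.single j 1) := by
  have e1 : ∀ v : E n, v = ∑ i, v i • EuclideanSpace.single i (1 : ℝ) := by
    intro v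
    have := (EuclideanSpace.basisFun (Fin n) ℝ).sum_repr v
    simpa using this.symm
  conv_lhs => rw [e1 c, e1 c']
  simp only [map_sum, map_smul, LinearMap.sum_apply, LinearMap.smul_apply, smul_eq_mul,
    Finset.mul_sum]
  rw [Finset.sum_comm]
  refine Finset.sum_congr rfl fun i _ => Finset.sum_congr rfl fun j _ => ?_
  ring

omit [MetricSpace X] in
theorem pw_mul {a b c : ℝ} (e : ℝ) (ha : 0 < a) (hb : 0 < b) (hc : 0 < c) :
    (a / b) ^ e * (b / c) ^ e = (a / c) ^ e := by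
  rw [← Real.mul_rpow (by positivity) (by positivity)]
  congr 1
  field_simp

omit [MetricSpace X] in
theorem wcont' (he : 0 < e) (t : ℝ) {a : ℝ} :
    ContinuousOn (fun s : ℝ => (t / s) ^ e) (Ioc 0 a) := by
  refine ContinuousOn.rpow_const ?_ fun s hs => Or.inr he.le
  exact continuousOn_const.div continuousOn_id fun s hs => hs.1.ne'

omit [MetricSpace X] in
theorem Par.A₀_nonneg (q : Par Q η A₀ e) (hQ : 0 ≤ Q) (hη : 0 ≤ η) : 0 ≤ A₀ := by
  have := q.Qη
  have : 0 ≤ Q * η := by positivity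
  linarith

namespace Hyp

variable (h : H.Hyp Ω T Q C₀ C κ m η)
include h

theorem κ_pos : 0 < κ := lt_of_lt_of_le one_pos h.one_le_κ

theorem Q_ge : 2 ≤ Q := by
  have := h.two_κ_le
  have := h.one_le_κ
  linarith

theorem T_le : T ≤ Q * T := by
  nlinarith [h.Q_ge, h.T_pos]

theorem QT_pos : 0 < Q * T := by nlinarith [h.Q_ge, h.T_pos]

theorem κT_le : κ * T ≤ Q * T := by nlinarith [h.two_κ_le, h.one_le_κ, h.T_pos]

theorem A₀_nonneg (q : Par Q η A₀ e) : 0 ≤ A₀ :=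
  q.A₀_nonneg (by linarith [h.Q_ge]) h.η_nonneg

theorem η_le (q : Par Q η A₀ e) : η ≤ A₀ := by
  nlinarith [q.Qη, h.Q_ge, h.η_nonneg]

/-- continuity of the weight times `gam` -/
theorem wcont (he : 0 < e) (t : ℝ) {x : X} (hx : x ∈ Ω) (c c' : E n) :
    ContinuousOn (fun s => (t / s) ^ e * H.gam s x c c') (Ioc 0 (Q * T)) :=
  (wcont' he t).mul (h.gam_cont x hx c c')

theorem wint (he : 0 < e) (t : ℝ) {x : X} (hx : x ∈ Ω) (c c' : E n) {a b : ℝ} (ha : 0 < a)
    (ha' : a ≤ Q * T) (hb : 0 < b) (hb' : b ≤ Q * T) :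
    IntervalIntegrable (fun s => (t / s) ^ e * H.gam s x c c') volume a b :=
  ((h.wcont he t hx c c').mono (uIcc_sub ha ha' hb hb')).intervalIntegrable

theorem gint {x : X} (hx : x ∈ Ω) (c c' : E n) {a b : ℝ} (ha : 0 < a)
    (ha' : a ≤ Q * T) (hb : 0 < b) (hb' : b ≤ Q * T) :
    IntervalIntegrable (fun s => H.gam s x c c') volume a b :=
  ((h.gam_cont x hx c c').mono (uIcc_sub ha ha' hb hb')).intervalIntegrable

theorem Nb_eq (he : 0 < e) {t : ℝ} (ht : 0 < t) (htT : t ≤ Q * T) {x : X} (hx : x ∈ Ω)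
    (c c' : E n) :
    H.Nb T Q A₀ e t x c c' = (∫ s in t..(Q * T), (t / s) ^ e * H.gam s x c c') +
      A₀ * (t / T) ^ e * inner ℝ c c' := by
  have hQT := h.QT_pos
  rw [Nb_apply]
  congr 1
  have e1 : ∀ s, (t / s) ^ e * H.gam s x c c' = ∑ i, ∑ j, c i * c' j *
      ((t / s) ^ e *
        H.gam s x (EuclideanSpace.single i 1) (EuclideanSpace.single j 1)) := by
    intro s
    rw [form_expand (H.gam s x) c c']
    simp only [Finset.mul_sum]
    refine Finset.sum_congr rfl fun i _ => Finset.sum_congr rfl fun j _ => ?_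
    ring
  simp_rw [e1]
  rw [intervalIntegral.integral_finsetSum]
  · refine Finset.sum_congr rfl fun i _ => ?_
    rw [intervalIntegral.integral_finsetSum]
    · refine Finset.sum_congr rfl fun j _ => ?_
      rw [intervalIntegral.integral_const_mul]
    · intro j _
      exact (h.wint he t hx _ _ ht htT hQT le_rfl).const_mul _
  · intro i _
    refine ContinuousOn.intervalIntegrable (continuousOn_finsetSum _ fun j _ => ?_)
    exact continuousOn_const.mul
      ((h.wcont he t hx _ _).mono (uIcc_sub ht htT hQT le_rfl))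

theorem Nb_self (he : 0 < e) {t : ℝ} (ht : 0 < t) (htT : t ≤ Q * T) {x : X} (hx : x ∈ Ω)
    (c : E n) :
    H.Nb T Q A₀ e t x c c = (∫ s in t..(Q * T), (t / s) ^ e * H.gam s x c c) +
      A₀ * (t / T) ^ e * ‖c‖ ^ 2 := by
  rw [h.Nb_eq he ht htT hx, real_inner_self_eq_norm_sq]

theorem wnonneg {t s : ℝ} (ht : 0 < t) (hs : 0 < s) (hs' : s ≤ Q * T) {x : X} (hx : x ∈ Ω)
    (c : E n) : 0 ≤ (t / s) ^ e * H.gam s x c c :=
  mul_nonneg (Real.rpow_nonneg (by positivity) _) (h.gam_nonneg s x hx c hs hs')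

theorem bg_nonneg (q : Par Q η A₀ e) {t : ℝ} (ht : 0 < t) (c : E n) :
    0 ≤ A₀ * (t / T) ^ e * ‖c‖ ^ 2 := by
  have := h.T_pos
  have := h.A₀_nonneg q
  positivity

theorem Nb_symm (he : 0 < e) {t : ℝ} (ht : 0 < t) (htT : t ≤ Q * T) {x : X} (hx : x ∈ Ω)
    (c c' : E n) : H.Nb T Q A₀ e t x c c' = H.Nb T Q A₀ e t x c' c := by
  rw [h.Nb_eq he ht htT hx, h.Nb_eq he ht htT hx, real_inner_comm]
  congr 1
  refine intervalIntegral.integral_congr fun s hs => ?_
  have hs' := uIcc_sub ht htT h.QT_pos le_rfl hs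
  rw [h.gam_symm s x hx c c' hs'.1 hs'.2]

theorem int_le_Nb (q : Par Q η A₀ e) {t a b : ℝ} (ht : 0 < t) (hta : t ≤ a) (hab : a ≤ b)
    (hb : b ≤ Q * T) {x : X} (hx : x ∈ Ω) (c : E n) :
    ∫ s in a..b, (t / s) ^ e * H.gam s x c c ≤ H.Nb T Q A₀ e t x c c := by
  rw [h.Nb_self q.e_pos ht (by linarith) hx]
  have h1 : ∫ s in a..b, (t / s) ^ e * H.gam s x c c ≤
      ∫ s in t..(Q * T), (t / s) ^ e * H.gam s x c c := by
    refine intervalIntegral.integral_mono_interval hta hab hb ?_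
      (h.wint q.e_pos t hx c c ht (by linarith) (by linarith) le_rfl)
    filter_upwards [ae_restrict_mem measurableSet_Ioc] with s hs
    exact h.wnonneg ht (by linarith [hs.1]) hs.2 hx c
  linarith [h.bg_nonneg q ht c]

theorem bg_le_Nb (he : 0 < e) {t : ℝ} (ht : 0 < t) (htT : t ≤ Q * T) {x : X} (hx : x ∈ Ω)
    (c : E n) : A₀ * (t / T) ^ e * ‖c‖ ^ 2 ≤ H.Nb T Q A₀ e t x c c := by
  rw [h.Nb_self he ht htT hx]
  have : 0 ≤ ∫ s in t..(Q * T), (t / s) ^ e * H.gam s x c c := by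
    refine intervalIntegral.integral_nonneg htT fun s hs => ?_
    exact h.wnonneg ht (by linarith [hs.1]) hs.2 hx c
  linarith

theorem Nb_nonneg (q : Par Q η A₀ e) {t : ℝ} (ht : 0 < t) (htT : t ≤ Q * T) {x : X}
    (hx : x ∈ Ω) (c : E n) : 0 ≤ H.Nb T Q A₀ e t x c c :=
  (h.bg_nonneg q ht c).trans (h.bg_le_Nb q.e_pos ht htT hx c)

/-- background term, mixed -/
theorem bg_mixed (q : Par Q η A₀ e) {t : ℝ} (ht : 0 < t) (htT : t ≤ Q * T) {x : X}
    (hx : x ∈ Ω) (c c' : E n) :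
    A₀ * (t / T) ^ e * (‖c‖ * ‖c'‖) ≤
      √(H.Nb T Q A₀ e t x c c) * √(H.Nb T Q A₀ e t x c' c') := by
  have hT := h.T_pos
  have hA := h.A₀_nonneg q
  have h1 : √(A₀ * (t / T) ^ e * ‖c‖ ^ 2) ≤ √(H.Nb T Q A₀ e t x c c) :=
    Real.sqrt_le_sqrt (h.bg_le_Nb q.e_pos ht htT hx c)
  have h2 : √(A₀ * (t / T) ^ e * ‖c'‖ ^ 2) ≤ √(H.Nb T Q A₀ e t x c' c') :=
    Real.sqrt_le_sqrt (h.bg_le_Nb q.e_pos ht htT hx c')
  have h3 : A₀ * (t / T) ^ e * (‖c‖ * ‖c'‖) =
      √(A₀ * (t / T) ^ e * ‖c‖ ^ 2) * √(A₀ * (t / T) ^ e * ‖c'‖ ^ 2) := by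
    have hw : 0 ≤ A₀ * (t / T) ^ e := by positivity
    rw [Real.sqrt_mul hw, Real.sqrt_mul hw, Real.sqrt_sq (norm_nonneg _),
      Real.sqrt_sq (norm_nonneg _)]
    linear_combination -(‖c‖ * ‖c'‖) * Real.mul_self_sqrt hw
  rw [h3]
  exact mul_le_mul h1 h2 (Real.sqrt_nonneg _) (Real.sqrt_nonneg _)

/-- Cauchy-Schwarz for `gam` -/
theorem gam_cs {s : ℝ} (hs : 0 < s) (hs' : s ≤ Q * T) {x : X} (hx : x ∈ Ω) (c c' : E n) :
    |H.gam s x c c'| ≤ √(H.gam s x c c) * √(H.gam s x c' c') :=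
  cs_form (H.gam s x) (fun v w => h.gam_symm s x hx v w hs hs')
    (fun v => h.gam_nonneg s x hx v hs hs') c c'

/-- Cauchy-Schwarz for the memory form -/
theorem Nb_cs (q : Par Q η A₀ e) {t : ℝ} (ht : 0 < t) (htT : t ≤ Q * T) {x : X} (hx : x ∈ Ω)
    (c c' : E n) : |H.Nb T Q A₀ e t x c c'| ≤
      √(H.Nb T Q A₀ e t x c c) * √(H.Nb T Q A₀ e t x c' c') :=
  cs_form (H.Nb T Q A₀ e t x) (fun v w => h.Nb_symm q.e_pos ht htT hx v w)
    (fun v => h.Nb_nonneg q ht htT hx v) c c'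

/-- fundamental theorem of calculus for `G` -/
theorem G_sub {t' t : ℝ} (ht' : 0 < t') (htt : t' ≤ t) (htT : t ≤ T) {x : X} (hx : x ∈ Ω)
    (c c' : E n) : H.G t x c c' - H.G t' x c c' =
      ∫ s in t'..t, (2 * H.gam s x c c' + H.tau s x c c') := by
  have hT : T ≤ Q * T := h.T_le
  have h0 := uIcc_sub ht' (htt.trans (htT.trans hT)) (lt_of_lt_of_le ht' htt) (htT.trans hT)
  have h0' := uIcc_sub ht' (htt.trans htT) (lt_of_lt_of_le ht' htt) htT
  rw [intervalIntegral.integral_eq_sub_of_hasDerivAt (f := fun s => H.G s x c c')]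
  · intro s hs
    have := h0' hs
    exact h.deriv s x hx c c' this.1 this.2
  · refine ContinuousOn.intervalIntegrable ?_
    exact (continuousOn_const.mul ((h.gam_cont x hx c c').mono h0)).add
      ((h.tau_cont x hx c c').mono h0')

theorem tint {x : X} (hx : x ∈ Ω) (c c' : E n) {a b : ℝ} (ha : 0 < a)
    (ha' : a ≤ T) (hb : 0 < b) (hb' : b ≤ T) :
    IntervalIntegrable (fun s => H.tau s x c c') volume a b :=
  ((h.tau_cont x hx c c').mono (uIcc_sub ha ha' hb hb')).intervalIntegrable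

end Hyp

end HF

end Vale.Agent.P242.H703
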