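import Vale.Agent.P242.H703.Hf1

/-! P242, Part A, (h2), (h4b), (h4c) as inequalities between forms on the parameter space
(helper703). -/

open MeasureTheory Set intervalIntegral

universe u

namespace Vale.Agent.P242.H703

namespace HF

variable {n : ℕ} {X : Type u} [MetricSpace X] {H : HF n X} {Ω : Set X}
  {T Q C₀ C κ m η A₀ e : ℝ}

namespace Hyp

variable (h : H.Hyp Ω T Q C₀ C κ m η) (q : Par Q η A₀ e)
include h

/-- continuity of `s ↦ γ_{κ s}` -/
theorem gcont_scale {x : X} (hx : x ∈ Ω) (c c' : E n) {b : ℝ} (hb : κ * b ≤ Q * T) :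
    ContinuousOn (fun s => H.gam (κ * s) x c c') (Ioc 0 b) := by
  have hκ := h.κ_pos
  refine (h.gam_cont x hx c c').comp (continuousOn_const.mul continuousOn_id) fun s hs => ?_
  exact ⟨mul_pos hκ hs.1, (mul_le_mul_of_nonneg_left hs.2 hκ.le).trans hb⟩

include q

/-- (F4c) -/
theorem F4c {t' t : ℝ} (ht' : 0 < t') (htt : t' ≤ t) (htT : t ≤ Q * T) {x : X} (hx : x ∈ Ω)
    (c : E n) : H.Nb T Q A₀ e t x c c ≤ (t / t') ^ e * H.Nb T Q A₀ e t' x c c := by
  have ht : 0 < t := lt_of_lt_of_le ht' htt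
  have hT := h.T_pos
  have he := q.e_pos
  rw [h.Nb_self he ht htT hx, h.Nb_self he ht' (htt.trans htT) hx, mul_add]
  refine add_le_add ?_ (le_of_eq ?_)
  · have h1 : ∫ s in t..(Q * T), (t / s) ^ e * H.gam s x c c =
        (t / t') ^ e * ∫ s in t..(Q * T), (t' / s) ^ e * H.gam s x c c := by
      rw [← intervalIntegral.integral_const_mul]
      refine intervalIntegral.integral_congr fun s hs => ?_
      have hs' := uIcc_sub ht htT h.QT_pos le_rfl hs
      simp only [← mul_assoc]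
      rw [pw_mul e ht ht' hs'.1]
    rw [h1]
    refine mul_le_mul_of_nonneg_left ?_ (Real.rpow_nonneg (by positivity) _)
    refine intervalIntegral.integral_mono_interval htt htT le_rfl ?_
      (h.wint he t' hx c c ht' (htt.trans htT) h.QT_pos le_rfl)
    filter_upwards [ae_restrict_mem measurableSet_Ioc] with s hs
    exact h.wnonneg ht' (by linarith [hs.1]) hs.2 hx c
  · have := pw_mul e ht ht' hT
    rw [← this]
    ring

/-- change of variables: `∫_a^b (t/s)^e γ_{κ s} ds ≤ ∫_{κ a}^{κ b} (t/s)^e γ_s ds` -/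
theorem int_scale {t a b : ℝ} (ht : 0 < t) (ha : 0 < a) (hab : a ≤ b) (hb : κ * b ≤ Q * T)
    {x : X} (hx : x ∈ Ω) (c : E n) : ∫ s in a..b, (t / s) ^ e * H.gam (κ * s) x c c ≤
      ∫ s in (κ * a)..(κ * b), (t / s) ^ e * H.gam s x c c := by
  have hκ := h.κ_pos
  have hκ1 := h.one_le_κ
  have e1 : ∀ s ∈ uIcc a b, (t / s) ^ e * H.gam (κ * s) x c c =
      κ ^ e * ((t / (κ * s)) ^ e * H.gam (κ * s) x c c) := by
    intro s hs
    rw [uIcc_of_le hab] at hs
    have hs0 : 0 < s := lt_of_lt_of_le ha hs.1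
    rw [← mul_assoc, ← Real.mul_rpow hκ.le (by positivity)]
    congr 2
    field_simp
  rw [intervalIntegral.integral_congr (g := fun s => κ ^ e *
    ((t / (κ * s)) ^ e * H.gam (κ * s) x c c)) e1, intervalIntegral.integral_const_mul,
    intervalIntegral.integral_comp_mul_left
      (fun s => (t / s) ^ e * H.gam s x c c) hκ.ne', smul_eq_mul, ← mul_assoc]
  have h1 : κ ^ e * κ⁻¹ ≤ 1 := by
    rw [← div_eq_mul_inv, div_le_one hκ]
    calc κ ^ e ≤ κ ^ (1 : ℝ) :=
          Real.rpow_le_rpow_of_exponent_le hκ1 (by linarith [q.e_le])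
      _ = κ := Real.rpow_one κ
  have h2 : 0 ≤ ∫ s in (κ * a)..(κ * b), (t / s) ^ e * H.gam s x c c := by
    refine intervalIntegral.integral_nonneg (by gcongr) fun s hs => ?_
    have hs0 : 0 < s := lt_of_lt_of_le (by positivity) hs.1
    exact h.wnonneg ht hs0 (hs.2.trans hb) hx c
  nlinarith

/-- (F4b) -/
theorem F4b {t : ℝ} (ht : 0 < t) (htT : t ≤ T) {x y : X} (hx : x ∈ Ω) (hy : y ∈ Ω)
    (hxy : dist x y ≤ C₀ * √t) (c : E n) :
    H.Nb T Q A₀ e t y c c ≤ (C + κ + 1) * H.Nb T Q A₀ e t x c c := by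
  have hT := h.T_pos
  have he := q.e_pos
  have hκ := h.κ_pos
  have hκ1 := h.one_le_κ
  have hC := h.one_le_C
  have hTQ := h.T_le
  have hQT := h.QT_pos
  have hη := h.η_nonneg
  have hA := h.A₀_nonneg q
  have htQ : t ≤ Q * T := htT.trans hTQ
  set S := Q * T / κ with hS
  have hκS : κ * S = Q * T := by rw [hS]; field_simp
  have hTS : T ≤ S := by
    rw [hS, le_div_iff₀ hκ]
    nlinarith [h.two_κ_le]
  have hSQ : S ≤ Q * T := by nlinarith [hκS]
  have hS0 : 0 < S := by positivity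
  have hb := h.bg_le_Nb (A₀ := A₀) he ht htQ hx c
  have h1 : ∫ s in t..S, (t / s) ^ e * H.gam s y c c ≤
      C * ∫ s in t..S, (t / s) ^ e * H.gam (κ * s) x c c := by
    have hsub : uIcc t S ⊆ Ioc 0 S := uIcc_sub ht (htT.trans hTS) hS0 le_rfl
    rw [← intervalIntegral.integral_const_mul]
    refine intervalIntegral.integral_mono_on (htT.trans hTS)
      (h.wint he t hy c c ht htQ hS0 hSQ) ?_ fun s hs => ?_
    · refine ContinuousOn.intervalIntegrable ?_
      exact continuousOn_const.mul (((wcont' he t).mono hsub).mul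
        ((h.gcont_scale hx c c hκS.le).mono hsub))
    · have hs0 : 0 < s := lt_of_lt_of_le ht hs.1
      have h2 := h.harnack s s x hx y hy c hs0 le_rfl
        ((mul_le_mul_of_nonneg_left hs.2 hκ.le).trans hκS.le)
        (hxy.trans (mul_le_mul_of_nonneg_left (Real.sqrt_le_sqrt hs.1) h.C₀_pos.le))
      rw [div_self hs0.ne', Real.one_rpow, mul_one] at h2
      calc (t / s) ^ e * H.gam s y c c ≤
          (t / s) ^ e * (C * H.gam (κ * s) x c c) :=
            mul_le_mul_of_nonneg_left h2 (Real.rpow_nonneg (by positivity) _)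
        _ = C * ((t / s) ^ e * H.gam (κ * s) x c c) := by ring
  have h2 := h.int_scale q ht ht (htT.trans hTS) hκS.le hx c
  rw [hκS] at h2
  have h3 := h.int_le_Nb q ht (by nlinarith : t ≤ κ * t)
    ((mul_le_mul_of_nonneg_left htT hκ.le).trans h.κT_le) le_rfl hx c
  have h4 : ∫ s in t..(Q * T), (t / s) ^ e * H.gam s y c c =
      (∫ s in t..S, (t / s) ^ e * H.gam s y c c) +
      ∫ s in S..(Q * T), (t / s) ^ e * H.gam s y c c :=
    (intervalIntegral.integral_add_adjacent_intervals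
      (h.wint he t hy c c ht htQ hS0 hSQ)
      (h.wint he t hy c c hS0 hSQ hQT le_rfl)).symm
  have h5 : ∫ s in S..(Q * T), (t / s) ^ e * H.gam s y c c ≤
      κ * (A₀ * (t / T) ^ e * ‖c‖ ^ 2) := by
    have h6 : ∫ s in S..(Q * T), (t / s) ^ e * H.gam s y c c ≤
        ∫ _ in S..(Q * T), (t / T) ^ e * (η * ‖c‖ ^ 2 / S) := by
      refine intervalIntegral.integral_mono_on hSQ
        (h.wint he t hy c c hS0 hSQ hQT le_rfl) intervalIntegrable_const fun s hs => ?_
      have hs0 : 0 < s := lt_of_lt_of_le hS0 hs.1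
      have hg := h.top_gam s y hy c (hTS.trans hs.1) hs.2
      have hg0 := h.gam_nonneg s y hy c hs0 hs.2
      refine mul_le_mul ?_ ?_ hg0 (Real.rpow_nonneg (by positivity) _)
      · refine Real.rpow_le_rpow (by positivity) ?_ he.le
        exact div_le_div_of_nonneg_left ht.le hT (hTS.trans hs.1)
      · rw [le_div_iff₀ hS0]
        nlinarith [hs.1]
    rw [intervalIntegral.integral_const, smul_eq_mul] at h6
    refine h6.trans ?_
    have hηA := h.η_le q
    have hw : 0 ≤ (t / T) ^ e := Real.rpow_nonneg (by positivity) _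
    calc (Q * T - S) * ((t / T) ^ e * (η * ‖c‖ ^ 2 / S)) ≤
        (Q * T) * ((t / T) ^ e * (η * ‖c‖ ^ 2 / S)) :=
          mul_le_mul_of_nonneg_right (by linarith) (by positivity)
      _ = κ * (η * (t / T) ^ e * ‖c‖ ^ 2) := by
          rw [← hκS]
          field_simp
      _ ≤ κ * (A₀ * (t / T) ^ e * ‖c‖ ^ 2) := by gcongr
  rw [h.Nb_self he ht htQ hy c]
  rw [h4]
  have h6 := mul_le_mul_of_nonneg_left (h2.trans h3) (by linarith : (0 : ℝ) ≤ C)
  have h7 := mul_le_mul_of_nonneg_left hb hκ.le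
  nlinarith

/-- pointwise bound of `γ_s` below the scale `t` by the memory form -/
theorem gam_le_Nb {t' s t : ℝ} (ht' : 0 < t') (hs' : t' ≤ s) (hst : s ≤ t) (htT : t ≤ T)
    {x : X} (hx : x ∈ Ω) (c : E n) :
    t * H.gam s x c c ≤ 2 * C * (2 * t / t') ^ m * H.Nb T Q A₀ e t x c c := by
  have hT := h.T_pos
  have hκ := h.κ_pos
  have hκ1 := h.one_le_κ
  have hC := h.one_le_C
  have hTQ := h.T_le
  have hs0 : 0 < s := lt_of_lt_of_le ht' hs'
  have ht : 0 < t := lt_of_lt_of_le hs0 hst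
  have h2t : κ * (2 * t) ≤ Q * T := by nlinarith [h.two_κ_le]
  have hsub : uIcc t (2 * t) ⊆ Ioc 0 (2 * t) := uIcc_sub ht (by linarith) (by positivity) le_rfl
  have hm := h.m_nonneg
  have hK : 0 ≤ C * (2 * t / t') ^ m := by positivity
  have h1 : t * H.gam s x c c = ∫ σ in t..(2 * t), H.gam s x c c := by
    rw [intervalIntegral.integral_const, smul_eq_mul]
    ring
  have h2 : ∫ σ in t..(2 * t), H.gam s x c c ≤
      ∫ σ in t..(2 * t), C * (2 * t / t') ^ m * (2 * ((t / σ) ^ e *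
        H.gam (κ * σ) x c c)) := by
    refine intervalIntegral.integral_mono_on (by linarith) intervalIntegrable_const ?_ ?_
    · refine ContinuousOn.intervalIntegrable ?_
      exact continuousOn_const.mul (continuousOn_const.mul
        (((wcont' q.e_pos t).mono hsub).mul ((h.gcont_scale hx c c h2t).mono hsub)))
    · intro σ hσ
      have hσ0 : 0 < σ := lt_of_lt_of_le ht hσ.1
      have hκσ : κ * σ ≤ Q * T := (mul_le_mul_of_nonneg_left hσ.2 hκ.le).trans h2t
      have h3 := h.harnack s σ x hx x hx c hs0 (hst.trans hσ.1) hκσ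
        (by rw [dist_self]; exact mul_nonneg h.C₀_pos.le (Real.sqrt_nonneg _))
      have h4 : 0 ≤ H.gam (κ * σ) x c c :=
        h.gam_nonneg _ x hx c (by positivity) hκσ
      have h5 : (σ / s) ^ m ≤ (2 * t / t') ^ m := by
        refine Real.rpow_le_rpow (by positivity) ?_ hm
        exact div_le_div₀ (by positivity) hσ.2 ht' hs'
      have h6 : 1 ≤ 2 * (t / σ) ^ e := by
        have e1 : (1 / 2 : ℝ) ≤ t / σ := by
          rw [le_div_iff₀ hσ0]
          linarith [hσ.2]
        have e2 : (1 / 2 : ℝ) ≤ (1 / 2 : ℝ) ^ e := by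
          conv_lhs => rw [← Real.rpow_one (1 / 2 : ℝ)]
          exact Real.rpow_le_rpow_of_exponent_ge (by norm_num) (by norm_num)
            (by linarith [q.e_le])
        have e3 : (1 / 2 : ℝ) ^ e ≤ (t / σ) ^ e :=
          Real.rpow_le_rpow (by norm_num) e1 q.e_pos.le
        linarith
      calc H.gam s x c c ≤ C * (σ / s) ^ m * H.gam (κ * σ) x c c := h3
        _ ≤ C * (2 * t / t') ^ m * H.gam (κ * σ) x c c := by gcongr
        _ ≤ C * (2 * t / t') ^ m * (2 * ((t / σ) ^ e * H.gam (κ * σ) x c c)) := by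
            refine mul_le_mul_of_nonneg_left ?_ hK
            nlinarith
  have h3 : ∫ σ in t..(2 * t), C * (2 * t / t') ^ m * (2 * ((t / σ) ^ e *
        H.gam (κ * σ) x c c)) = C * (2 * t / t') ^ m * (2 *
        ∫ σ in t..(2 * t), (t / σ) ^ e * H.gam (κ * σ) x c c) := by
    rw [intervalIntegral.integral_const_mul, intervalIntegral.integral_const_mul]
  have h4 := h.int_scale q ht ht (by linarith : t ≤ 2 * t) h2t hx c
  have h5 := h.int_le_Nb q ht (by nlinarith : t ≤ κ * t) (by nlinarith : κ * t ≤ κ * (2 * t))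
    h2t hx c
  have h6 := mul_le_mul_of_nonneg_left (h4.trans h5) hK
  rw [h1]
  refine h2.trans (h3.trans_le ?_)
  linarith

/-- (F2) -/
theorem F2 {t' t : ℝ} (ht' : 0 < t') (htt : t' ≤ t) (htT : t ≤ T) {x : X} (hx : x ∈ Ω)
    (c c' : E n) :
    |H.G t x c c' - H.G t' x c c'| ≤ (4 * C * (2 * t / t') ^ m + 1) *
      (√(H.Nb T Q A₀ e t x c c) * √(H.Nb T Q A₀ e t x c' c')) := by
  have hT := h.T_pos
  have hC := h.one_le_C
  have hTQ := h.T_le
  have hη := h.η_nonneg
  have hηA := h.η_le q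
  have hA := h.A₀_nonneg q
  have ht : 0 < t := lt_of_lt_of_le ht' htt
  have htQ : t ≤ Q * T := htT.trans hTQ
  set S := √(H.Nb T Q A₀ e t x c c) * √(H.Nb T Q A₀ e t x c' c') with hS
  set K := 2 * C * (2 * t / t') ^ m with hK
  have hK0 : 0 ≤ K := by positivity
  rw [h.G_sub ht' htt htT hx]
  have hbd : ∀ s ∈ uIoc t' t, ‖2 * H.gam s x c c' + H.tau s x c c'‖ ≤
      2 * (K / t * S) + η / T * (‖c‖ * ‖c'‖) := by
    intro s hs
    rw [uIoc_of_le htt] at hs
    have hs0 : 0 < s := lt_trans ht' hs.1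
    rw [Real.norm_eq_abs]
    refine (abs_add_le _ _).trans (add_le_add ?_ (h.tau_bd s x hx c c' hs0 (hs.2.trans htT)))
    rw [abs_mul, abs_two]
    refine mul_le_mul_of_nonneg_left ?_ (by norm_num)
    refine (h.gam_cs hs0 (hs.2.trans htQ) hx c c').trans ?_
    have e : ∀ v : E n, √(H.gam s x v v) ≤ √(K / t) * √(H.Nb T Q A₀ e t x v v) := by
      intro v
      rw [← Real.sqrt_mul (by positivity)]
      refine Real.sqrt_le_sqrt ?_
      have := h.gam_le_Nb q ht' hs.1.le hs.2 htT hx v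
      rw [div_mul_eq_mul_div, le_div_iff₀ ht]
      linarith
    calc √(H.gam s x c c) * √(H.gam s x c' c') ≤
        (√(K / t) * √(H.Nb T Q A₀ _ t x c c)) * (√(K / t) * √(H.Nb T Q A₀ _ t x c' c')) :=
          mul_le_mul (e c) (e c') (Real.sqrt_nonneg _) (by positivity)
      _ = (√(K / t) * √(K / t)) * S := by rw [hS]; ring
      _ = K / t * S := by rw [Real.mul_self_sqrt (by positivity)]
  have h1 := intervalIntegral.norm_integral_le_of_norm_le_const hbd
  rw [Real.norm_eq_abs] at h1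
  refine h1.trans ?_
  have hS0 : 0 ≤ S := by positivity
  have h2 : |t - t'| ≤ t := by
    rw [abs_of_nonneg (by linarith)]
    linarith
  have h3 : 0 ≤ 2 * (K / t * S) + η / T * (‖c‖ * ‖c'‖) := by positivity
  refine (mul_le_mul_of_nonneg_left h2 h3).trans ?_
  have h4 : η / T * (‖c‖ * ‖c'‖) * t ≤ S := by
    refine le_trans ?_ (h.bg_mixed q ht htQ hx c c')
    have e1 : t / T ≤ (t / T) ^ e := by
      conv_lhs => rw [← Real.rpow_one (t / T)]
      exact Real.rpow_le_rpow_of_exponent_ge (by positivity) ((div_le_one hT).mpr htT)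
        (by linarith [q.e_le])
    calc η / T * (‖c‖ * ‖c'‖) * t = η * (t / T) * (‖c‖ * ‖c'‖) := by ring
      _ ≤ A₀ * (t / T) ^ e * (‖c‖ * ‖c'‖) := by gcongr
  have h5 : 2 * (K / t * S) * t = 2 * K * S := by
    field_simp
  nlinarith

end Hyp

end HF

end Vale.Agent.P242.H703
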