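import Vale.Agent.P242.H703.Hf2

/-! P242, Part A, (h3) as an inequality between forms on the parameter space (helper703). -/

open MeasureTheory Set intervalIntegral

universe u

namespace Vale.Agent.P242.H703

namespace HF

variable {n : ℕ} {X : Type u} [MetricSpace X] {H : HF n X} {Ω : Set X}
  {T Q C₀ C κ m η A₀ e : ℝ}

omit [MetricSpace X] in
theorem sqrt_div_le (he : e ≤ 1 / 2) {t s : ℝ} (ht : 0 < t) (hts : t ≤ s) :
    1 / √s ≤ 1 / √t * (t / s) ^ e := by
  have hs : 0 < s := lt_of_lt_of_le ht hts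
  have h1 : √(t / s) ≤ (t / s) ^ e := by
    rw [Real.sqrt_eq_rpow]
    exact Real.rpow_le_rpow_of_exponent_ge (by positivity) ((div_le_one hs).mpr hts) he
  have hst : 0 < √t := Real.sqrt_pos.mpr ht
  calc 1 / √s = 1 / √t * √(t / s) := by
        rw [Real.sqrt_div ht.le]
        field_simp
    _ ≤ 1 / √t * (t / s) ^ e := by gcongr

omit [MetricSpace X] in
theorem int_inv_sqrt {t T : ℝ} (ht : 0 < t) (htT : t ≤ T) :
    ∫ s in t..T, 1 / √s = 2 * √T - 2 * √t := by
  have h0 : ∀ s ∈ uIcc t T, 0 < s := by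
    intro s hs
    rw [uIcc_of_le htT] at hs
    exact lt_of_lt_of_le ht hs.1
  rw [intervalIntegral.integral_eq_sub_of_hasDerivAt (f := fun s => 2 * √s)]
  · intro s hs
    have := (Real.hasDerivAt_sqrt (h0 s hs).ne').const_mul 2
    have h2 : (1 : ℝ) / √s = 2 * (1 / (2 * √s)) := by
      have := Real.sqrt_pos.mpr (h0 s hs)
      field_simp
    rw [h2]
    exact this
  · refine ContinuousOn.intervalIntegrable ?_
    exact continuousOn_const.div Real.continuous_sqrt.continuousOn
      fun s hs => (Real.sqrt_pos.mpr (h0 s hs)).ne'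

namespace Hyp

variable (h : H.Hyp Ω T Q C₀ C κ m η) (q : Par Q η A₀ e)
include h q

theorem F3_gam {t : ℝ} (ht : 0 < t) (htT : t ≤ T) {x y : X} (hx : x ∈ Ω)
    (hy : y ∈ Ω) (hxy : dist x y ≤ C₀ * √t)
    (c c' : E n) :
    |∫ s in t..T, (H.gam s x c c' - H.gam s y c c')| ≤ C * (dist x y / √t) *
      (√(H.Nb T Q A₀ e t x c c) * √(H.Nb T Q A₀ e t x c' c')) := by
  have hT := h.T_pos
  have hκ := h.κ_pos
  have hκ1 := h.one_le_κ
  have hC := h.one_le_C
  have hTM := h.T_le
  have htM : t ≤ Q * T := htT.trans hTM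
  have hst : 0 < √t := Real.sqrt_pos.mpr ht
  have hsub : uIcc t T ⊆ Ioc 0 T := uIcc_sub ht htT hT le_rfl
  have hκT := h.κT_le
  have hN := h.Nb_nonneg q ht htM hx c
  have hN' := h.Nb_nonneg q ht htM hx c'
  set a := C * (dist x y / √t) with ha
  have ha0 : 0 ≤ a := by positivity
  have key : |∫ s in t..T, (H.gam s x c c' - H.gam s y c c')| ≤
      √(a * H.Nb T Q A₀ e t x c c) * √(a * H.Nb T Q A₀ e t x c' c') := by
    refine le_sqrt_mul_of_forall (by positivity) (by positivity) fun r hr => ?_
    have hA : ∀ v : E n, ∫ s in t..T, (t / s) ^ e * H.gam (κ * s) x v v ≤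
        H.Nb T Q A₀ e t x v v := fun v =>
      (h.int_scale q ht ht htT hκT hx v).trans
        (h.int_le_Nb q ht (by nlinarith) (by gcongr) hκT hx v)
    have hi : ∀ v : E n, IntervalIntegrable
        (fun s => (t / s) ^ e * H.gam (κ * s) x v v) volume t T := fun v =>
      ContinuousOn.intervalIntegrable
        (((wcont' q.e_pos t).mono hsub).mul ((h.gcont_scale hx v v hκT).mono hsub))
    have hpt : ∀ s ∈ Ioc t T, ‖H.gam s x c c' - H.gam s y c c'‖ ≤
        a * ((r * ((t / s) ^ e * H.gam (κ * s) x c c) +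
          ((t / s) ^ e * H.gam (κ * s) x c' c') / r) / 2) := by
      intro s hs
      have hs0 : 0 < s := lt_trans ht hs.1
      have hκs : κ * s ≤ Q * T := (mul_le_mul_of_nonneg_left hs.2 hκ.le).trans hκT
      have hκs0 : 0 < κ * s := by positivity
      rw [Real.norm_eq_abs]
      have h1 := h.lip s x hx y hy c c' hs0 hs.2
        (hxy.trans (mul_le_mul_of_nonneg_left (Real.sqrt_le_sqrt hs.1.le) h.C₀_pos.le))
      have h2 := sqrt_mul_sqrt_le (h.gam_nonneg _ x hx c hκs0 hκs)
        (h.gam_nonneg _ x hx c' hκs0 hκs) hr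
      have h3 := sqrt_div_le q.e_le ht hs.1.le
      have h4 : C * (dist x y / √s) ≤ a * (t / s) ^ e := by
        calc C * (dist x y / √s) = C * dist x y * (1 / √s) := by ring
          _ ≤ C * dist x y * (1 / √t * (t / s) ^ e) := by gcongr
          _ = a * (t / s) ^ e := by rw [ha]; ring
      calc |H.gam s x c c' - H.gam s y c c'| ≤
          C * (dist x y / √s) * (√(H.gam (κ * s) x c c) * √(H.gam (κ * s) x c' c')) := h1
        _ ≤ (a * (t / s) ^ e) *
            ((r * H.gam (κ * s) x c c + H.gam (κ * s) x c' c' / r) / 2) := by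
            refine mul_le_mul h4 h2 (by positivity) ?_
            exact mul_nonneg ha0 (Real.rpow_nonneg (by positivity) _)
        _ = _ := by ring
    have hint : IntervalIntegrable (fun s => a * ((r * ((t / s) ^ e *
        H.gam (κ * s) x c c) + ((t / s) ^ e * H.gam (κ * s) x c' c') / r) / 2))
        volume t T :=
      ((((hi c).const_mul r).add ((hi c').div_const r)).div_const 2).const_mul a
    have h5 := intervalIntegral.norm_integral_le_of_norm_le htT
      (Filter.Eventually.of_forall hpt) hint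
    rw [Real.norm_eq_abs] at h5
    refine h5.trans ?_
    rw [intervalIntegral.integral_const_mul, intervalIntegral.integral_div,
      intervalIntegral.integral_add ((hi c).const_mul r) ((hi c').div_const r),
      intervalIntegral.integral_const_mul, intervalIntegral.integral_div]
    have h6 : (r * (∫ s in t..T, (t / s) ^ e * H.gam (κ * s) x c c) +
        (∫ s in t..T, (t / s) ^ e * H.gam (κ * s) x c' c') / r) / 2 ≤
        (r * H.Nb T Q A₀ e t x c c + H.Nb T Q A₀ e t x c' c' / r) / 2 := by
      have := hA c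
      have := hA c'
      gcongr
    calc _ ≤ a * ((r * H.Nb T Q A₀ e t x c c + H.Nb T Q A₀ e t x c' c' / r) / 2) :=
          mul_le_mul_of_nonneg_left h6 ha0
      _ = _ := by ring
  refine key.trans (le_of_eq ?_)
  rw [Real.sqrt_mul ha0, Real.sqrt_mul ha0]
  have := Real.mul_self_sqrt ha0
  calc _ = (√a * √a) * (√(H.Nb T Q A₀ e t x c c) * √(H.Nb T Q A₀ e t x c' c')) := by ring
    _ = _ := by rw [this]

/-- (F3) -/
theorem F3 {t : ℝ} (ht : 0 < t) (htT : t ≤ T) {x y : X} (hx : x ∈ Ω)
    (hy : y ∈ Ω) (hxy : dist x y ≤ C₀ * √t)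
    (c c' : E n) :
    |H.G t x c c' - H.G t y c c'| ≤ (2 * C + 3) * (dist x y / √t) *
      (√(H.Nb T Q A₀ e t x c c) * √(H.Nb T Q A₀ e t x c' c')) := by
  have hT := h.T_pos
  have hC := h.one_le_C
  have hTM := h.T_le
  have hη := h.η_nonneg
  have htM : t ≤ Q * T := htT.trans hTM
  have hst : 0 < √t := Real.sqrt_pos.mpr ht
  have hsT : 0 < √T := Real.sqrt_pos.mpr hT
  have hGx := h.G_sub ht htT le_rfl hx c c'
  have hGy := h.G_sub ht htT le_rfl hy c c'
  have hA := h.A₀_nonneg q
  have hηA := h.η_le q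
  set S := √(H.Nb T Q A₀ e t x c c) * √(H.Nb T Q A₀ e t x c' c') with hS
  have hbg : η * (√t / √T) * (‖c‖ * ‖c'‖) ≤ S := by
    refine le_trans ?_ (h.bg_mixed q ht htM hx c c')
    have e1 : √t / √T ≤ (t / T) ^ e := by
      rw [← Real.sqrt_div ht.le, Real.sqrt_eq_rpow]
      exact Real.rpow_le_rpow_of_exponent_ge (by positivity) ((div_le_one hT).mpr htT)
        q.e_le
    gcongr
  -- top scale
  have h1 : |H.G T x c c' - H.G T y c c'| ≤ dist x y / √t * S := by
    refine (h.top_lip x hx y hy c c' (hxy.trans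
      (mul_le_mul_of_nonneg_left (Real.sqrt_le_sqrt htT) h.C₀_pos.le))).trans ?_
    calc η * (dist x y / √T) * (‖c‖ * ‖c'‖) =
        dist x y / √t * (η * (√t / √T) * (‖c‖ * ‖c'‖)) := by field_simp
      _ ≤ dist x y / √t * S := by gcongr
  -- gam term
  have h2 := h.F3_gam q ht htT hx hy hxy c c'
  -- tau term
  have h3 : |∫ s in t..T, (H.tau s x c c' - H.tau s y c c')| ≤ 2 * (dist x y / √t * S) := by
    have hpt : ∀ s ∈ Ioc t T, ‖H.tau s x c c' - H.tau s y c c'‖ ≤
        η / T * dist x y * (‖c‖ * ‖c'‖) * (1 / √s) := by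
      intro s hs
      have hs0 : 0 < s := lt_trans ht hs.1
      rw [Real.norm_eq_abs]
      refine (h.tau_lip s x hx y hy c c' hs0 hs.2
        (hxy.trans (mul_le_mul_of_nonneg_left (Real.sqrt_le_sqrt hs.1.le) h.C₀_pos.le))).trans
        (le_of_eq ?_)
      ring
    have hint : IntervalIntegrable (fun s => η / T * dist x y * (‖c‖ * ‖c'‖) * (1 / √s))
        volume t T := by
      refine ContinuousOn.intervalIntegrable ?_
      refine continuousOn_const.mul (continuousOn_const.div
        Real.continuous_sqrt.continuousOn fun s hs => ?_)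
      rw [uIcc_of_le htT] at hs
      exact (Real.sqrt_pos.mpr (lt_of_lt_of_le ht hs.1)).ne'
    have h5 := intervalIntegral.norm_integral_le_of_norm_le htT
      (Filter.Eventually.of_forall hpt) hint
    rw [Real.norm_eq_abs, intervalIntegral.integral_const_mul, int_inv_sqrt ht htT] at h5
    refine h5.trans ?_
    have h6 : η / T * dist x y * (‖c‖ * ‖c'‖) * (2 * √T - 2 * √t) ≤
        η / T * dist x y * (‖c‖ * ‖c'‖) * (2 * √T) := by
      refine mul_le_mul_of_nonneg_left (by linarith) (by positivity)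
    refine h6.trans ?_
    have h7 : η / T * dist x y * (‖c‖ * ‖c'‖) * (2 * √T) =
        2 * (dist x y / √t * (η * (√t / √T) * (‖c‖ * ‖c'‖))) := by
      have e1 : η / T * √T = η / √T := by
        rw [div_mul_eq_mul_div, div_eq_div_iff hT.ne' hsT.ne']
        linear_combination η * Real.mul_self_sqrt hT.le
      have e2 : dist x y / √t * (η * (√t / √T) * (‖c‖ * ‖c'‖)) =
          dist x y * (η / √T) * (‖c‖ * ‖c'‖) := by
        field_simp
      rw [e2, ← e1]
      ring
    rw [h7]
    gcongr
  have hgx : IntervalIntegrable (fun s => H.gam s x c c') volume t T :=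
    h.gint hx c c' ht htM hT hTM
  have hgy : IntervalIntegrable (fun s => H.gam s y c c') volume t T :=
    h.gint hy c c' ht htM hT hTM
  have htx : IntervalIntegrable (fun s => H.tau s x c c') volume t T :=
    h.tint hx c c' ht htT hT le_rfl
  have hty : IntervalIntegrable (fun s => H.tau s y c c') volume t T :=
    h.tint hy c c' ht htT hT le_rfl
  have hsplit : H.G t x c c' - H.G t y c c' = (H.G T x c c' - H.G T y c c') -
      (2 * (∫ s in t..T, (H.gam s x c c' - H.gam s y c c')) +
        ∫ s in t..T, (H.tau s x c c' - H.tau s y c c')) := by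
    rw [intervalIntegral.integral_sub hgx hgy, intervalIntegral.integral_sub htx hty]
    rw [intervalIntegral.integral_add (hgx.const_mul 2) htx,
      intervalIntegral.integral_const_mul] at hGx
    rw [intervalIntegral.integral_add (hgy.const_mul 2) hty,
      intervalIntegral.integral_const_mul] at hGy
    linarith
  rw [hsplit, abs_le]
  rw [abs_le] at h1 h2 h3
  constructor
  · nlinarith [h1.1, h1.2, h2.1, h2.2, h3.1, h3.2]
  · nlinarith [h1.1, h1.2, h2.1, h2.2, h3.1, h3.2]

end Hyp

end HF

end Vale.Agent.P242.H703
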