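import Vale.Agent.P242.H703.Hf4
import Vale.Agent.P242.H751.Uc
import Vale.Agent.P242.H924.Uc
import Vale.Agent.P242.H71.HFDef
import Vale.Agent.P242.H990.Cons

/-! P242, package A-H234 (helper703): the heat flow data of a configuration. -/

set_option linter.all false

open MeasureTheory Filter Topology Set Metric
open scoped ENNReal NNReal InnerProductSpace

universe u

namespace Vale.Agent.P242.H703

open Vale.Agent.P233 Vale.Agent.P233.RA Vale.Agent.P242.H71 Vale.Agent.P242.H990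

section gen

variable {M : Type*} [MeasurableSpace M] {m : Measure M} {C : Calc m}

theorem mem_top_mul' {f g : M →ₘ[m] ℝ} (hf : MemLp f ∞ m) (hg : MemLp g 1 m) :
    MemLp (f * g : M →ₘ[m] ℝ) 1 m := mem_mul_top hf hg

theorem bei_abs (hC : IsGamma C) {K : ℝ} (hB : C.BEi K) : C.BEi (-|K|) := by
  intro f h φ ψ h1 h2 h3 h4 h5 h6
  refine le_trans ?_ (hB f h φ ψ h1 h2 h3 h4 h5 h6)
  have hfW := h1.1
  refine I_mono (mem_mul_top h5 (mem_add (hC.toIsDir.Γ_mem1 hfW h2) (mem_smul _ (hC.mem1 f hfW))))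
    (mem_mul_top h5 (mem_add (hC.toIsDir.Γ_mem1 hfW h2) (mem_smul _ (hC.mem1 f hfW)))) ?_
  refine mul_le_mul_of_nonneg_left ?_ h4
  refine add_le_add le_rfl ?_
  rw [le_iff_ae]
  filter_upwards [smul_ae (C.Γ f f) (-|K|), smul_ae (C.Γ f f) K, hC.toIsDir.Γ_nonneg_ae hfW]
    with x a1 a2 a3
  rw [a1, a2]
  exact mul_le_mul_of_nonneg_right (neg_abs_le K) a3

/-- Cauchy-Schwarz with a signed weight -/
theorem I_abs_Γ_le (hD : IsDir C) {z φ f g : M →ₘ[m] ℝ} (hz : MemLp z ∞ m) (hφ : MemLp φ ∞ m)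
    (h1 : ∀ᵐ x ∂m, |z x| ≤ φ x) (hf : f ∈ C.W) (hg : g ∈ C.W) :
    |I (z * C.Γ f g)| ≤ √(I (φ * C.Γ f f)) * √(I (φ * C.Γ g g)) := by
  have m1 := hD.Γ_mem1 hf hg
  have m2 := hD.Γ_mem1 hf hf
  have m3 := hD.Γ_mem1 hg hg
  have h0 : (0 : M →ₘ[m] ℝ) ≤ φ := by
    rw [nonneg_iff_ae]
    filter_upwards [h1] with x hx
    exact (abs_nonneg _).trans hx
  refine le_sqrt_mul_of_forall (I_nonneg (mul_nonneg h0 (hD.nonneg _ hf)))
    (I_nonneg (mul_nonneg h0 (hD.nonneg _ hg))) fun r hr => ?_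
  have e1 : (r * I (φ * C.Γ f f) + I (φ * C.Γ g g) / r) / 2 =
      ∫ x, (r * (φ * C.Γ f f) x + (φ * C.Γ g g) x / r) / 2 ∂m := by
    unfold I
    rw [integral_div, integral_add, integral_const_mul, integral_div]
    · exact (memLp_one_iff_integrable.1 (mem_top_mul' hφ m2)).const_mul r
    · exact (memLp_one_iff_integrable.1 (mem_top_mul' hφ m3)).div_const r
  rw [e1]
  unfold I
  refine (abs_integral_le_integral_abs).trans ?_
  refine integral_mono_ae (memLp_one_iff_integrable.1 (mem_top_mul' hz m1)).abs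
    ((((memLp_one_iff_integrable.1 (mem_top_mul' hφ m2)).const_mul r).add
      ((memLp_one_iff_integrable.1 (mem_top_mul' hφ m3)).div_const r)).div_const 2) ?_
  filter_upwards [h1, mul_ae z (C.Γ f g), mul_ae φ (C.Γ f f), mul_ae φ (C.Γ g g),
    hD.Γ_cs_ae hf hg, hD.Γ_nonneg_ae hf, hD.Γ_nonneg_ae hg] with x a1 a2 a3 a4 a5 a6 a7
  simp only [a2, a3, a4]
  have b1 : |C.Γ f g x| ≤ √(C.Γ f f x) * √(C.Γ g g x) := by
    rw [← Real.sqrt_mul a6]
    exact Real.abs_le_sqrt a5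
  have b2 := sqrt_mul_sqrt_le a6 a7 hr
  have hφ0 : 0 ≤ φ x := (abs_nonneg _).trans a1
  rw [abs_mul]
  calc |z x| * |C.Γ f g x| ≤ φ x * ((r * C.Γ f f x + C.Γ g g x / r) / 2) :=
        mul_le_mul a1 (b1.trans b2) (abs_nonneg _) hφ0
    _ = _ := by ring

end gen

/-- the lower order term of `d/ds G_s = 2 γ_s + τ_s` -/
noncomputable def tm {M : Type u} [MetricSpace M] [MeasurableSpace M] (m : Measure M) {n : ℕ}
    (K : ℝ) (p : ℝ → M → M → ℝ) (u : Fin n → M →ₘ[m] ℝ) (s : ℝ) (x : M)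
    (c c' : EuclideanSpace ℝ (Fin n)) : ℝ :=
  PP m p s x ((sob m).Γ (uc u c) ((sob m).lap (uc u c')) +
    (sob m).Γ (uc u c') ((sob m).lap (uc u c))) - 2 * |K| * Gm m p u s x c c'

/-- the heat flow data of the maps `u` -/
noncomputable def hf {M : Type u} [MetricSpace M] [MeasurableSpace M] (m : Measure M) {n : ℕ}
    (K : ℝ) (p : ℝ → M → M → ℝ) (u : Fin n → M →ₘ[m] ℝ) : H703.HF n M where
  G s x := toForm (Gm m p u s x)
  gam s x := toForm (gm m K p u s x)
  tau s x := toForm (tm m K p u s x)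

variable {M : Type u} [MetricSpace M] [CompleteSpace M] [SecondCountableTopology M]
  [MeasurableSpace M] [BorelSpace M] {m : Measure M} {n : ℕ} {K A : ℝ} {o : M} {p : ℝ → M → M → ℝ}
  {R Q η ρ : ℝ} {u : Fin n → M →ₘ[m] ℝ} {uu : M → E n}

section forms

variable (h : Env m n K o A p) (hu : Cfg m n K o p R Q η ρ u uu)
include h hu

theorem uc_test (c : E n) : uc u c ∈ (sob m).Test :=
  H751.uc_test (H751.env_gamma h) hu c

theorem ph_A' {s : ℝ} (hs : 0 < s) (x : M) : ph m p s x ∈ (sob m).A :=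
  ph_A (H751.env_gamma h) h.ker h.kb hs x

theorem sb_Gm {s : ℝ} (hs : 0 < s) (x : M) : SymBil (Gm m p u s x) where
  symm c d := H751.Gm_symm (H751.env_gamma h) hu c d
  add a b d := H751.Gm_add_left (H751.env_gamma h) h.ker hu hs a b d
  smul r a d := H751.Gm_smul_left (H751.env_gamma h) hu r a d

theorem sb_gm {s : ℝ} (hs : 0 < s) (x : M) : SymBil (gm m K p u s x) where
  symm c d := (H751.env_gamma h).NN_symm (bei_abs (H751.env_gamma h) (H751.env_bei h))
    (uc_test h hu c) (uc_test h hu d)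
  add a b d := by
    unfold gm gam
    rw [H751.uc_add]
    exact (H751.env_gamma h).NN_add_left (bei_abs (H751.env_gamma h) (H751.env_bei h))
      (uc_test h hu a) (uc_test h hu b) (uc_test h hu d) (ph_A' h hu hs x)
  smul r a d := by
    unfold gm gam
    rw [H751.uc_smul]
    exact (H751.env_gamma h).NN_smul_left (bei_abs (H751.env_gamma h) (H751.env_bei h)) r
      (uc_test h hu a) (uc_test h hu d) (ph_A' h hu hs x)

end forms


section ker

variable (hk : KB n o A p)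
include hk

theorem cG_mono {Γ C₀ C₁ : ℝ} (h0 : 0 ≤ C₀) (h : C₀ ≤ C₁) : cG n A Γ C₀ ≤ cG n A Γ C₁ := by
  have := hk.pos
  unfold cG
  gcongr

/-- Harnack inequality of the kernel, polynomial in the quotient of the times -/
theorem ker_harn {C₀ s s' : ℝ} {x y z : M} (hs : 0 < s) (hss : s ≤ s')
    (h3 : 4 * A ^ 2 * s' ≤ 1 / 2) (hC₀ : 0 ≤ C₀) (hxy : dist x y ≤ C₀ * √s) (hy : dist y o ≤ 1) :
    p s y z ≤ 2 * Real.exp (2 * A * C₀) * cG n A (4 * A ^ 2) C₀ * Real.exp (2 * A) *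
      (s' / s) ^ ((n : ℝ) / 2) * p (4 * A ^ 2 * s') x z := by
  have hA := hk.one_le
  have hA0 := hk.pos
  have hs' : 0 < s' := lt_of_lt_of_le hs hss
  have h1 := hk.p_le (z := z) (Γ := 4 * A ^ 2 * (s' / s)) (C₀ := C₀) (s' := 4 * A ^ 2 * s') (x := y)
    (x' := x) hs (by gcongr) (by field_simp; exact le_rfl) h3 (by rwa [dist_comm])
  refine h1.trans ?_
  have hp0 := hk.p_pos (s := 4 * A ^ 2 * s') (by positivity) h3 x z
  have e1 : cG n A (4 * A ^ 2 * (s' / s)) C₀ = cG n A (4 * A ^ 2) C₀ * (s' / s) ^ ((n : ℝ) / 2) := by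
    unfold cG
    have e2 : √(4 * A ^ 2 * (s' / s)) ^ n = √(4 * A ^ 2) ^ n * (s' / s) ^ ((n : ℝ) / 2) := by
      rw [Real.sqrt_mul (by positivity), mul_pow]
      congr 1
      rw [Real.sqrt_eq_rpow, ← Real.rpow_natCast, ← Real.rpow_mul (by positivity)]
      congr 1
      ring
    rw [e2]
    ring
  rw [e1]
  have hc := cG_pos (n := n) (Γ := 4 * A ^ 2) (C₀ := C₀) hA (by positivity)
  have h2 : Real.exp (2 * A * dist y o) ≤ Real.exp (2 * A) :=
    Real.exp_le_exp.2 (by nlinarith)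
  have h4 : 1 ≤ Real.exp (2 * A * C₀) := Real.one_le_exp (by positivity)
  have h5 : 0 ≤ cG n A (4 * A ^ 2) C₀ * (s' / s) ^ ((n : ℝ) / 2) * Real.exp (2 * A) *
      p (4 * A ^ 2 * s') x z := by positivity
  calc cG n A (4 * A ^ 2) C₀ * (s' / s) ^ ((n : ℝ) / 2) * Real.exp (2 * A * dist y o) *
        p (4 * A ^ 2 * s') x z
      ≤ cG n A (4 * A ^ 2) C₀ * (s' / s) ^ ((n : ℝ) / 2) * Real.exp (2 * A) *
        p (4 * A ^ 2 * s') x z := by gcongr
    _ ≤ (2 * Real.exp (2 * A * C₀)) * (cG n A (4 * A ^ 2) C₀ * (s' / s) ^ ((n : ℝ) / 2) *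
        Real.exp (2 * A) * p (4 * A ^ 2 * s') x z) := by nlinarith
    _ = _ := by ring

/-- Lipschitz estimate of the kernel -/
theorem ker_lip {C₀ s : ℝ} {x y z : M} (hs : 0 < s)
    (h3 : 4 * A ^ 2 * s ≤ 1 / 2) (hC₀ : 0 ≤ C₀) (hxy : dist x y ≤ C₀ * √s) (hx : dist x o ≤ 1)
    (hy : dist y o ≤ 1) :
    |p s x z - p s y z| ≤ 2 * Real.exp (2 * A * C₀) * cG n A (4 * A ^ 2) C₀ * Real.exp (2 * A) *
      (dist x y / √s) * p (4 * A ^ 2 * s) x z := by
  have hA := hk.one_le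
  have hA0 := hk.pos
  have hq : 0 < √s := Real.sqrt_pos.2 hs
  have hp0 := hk.p_pos (s := 4 * A ^ 2 * s) (by positivity) h3 x z
  have hc := cG_pos (n := n) (Γ := 4 * A ^ 2) (C₀ := C₀) hA (by positivity)
  have h4 : 1 ≤ Real.exp (2 * A * C₀) := Real.one_le_exp (by positivity)
  have h2 : ∀ w : M, dist w o ≤ 1 → Real.exp (2 * A * dist w o) ≤ Real.exp (2 * A) :=
    fun w hw => Real.exp_le_exp.2 (by nlinarith)
  rcases le_or_gt (dist x y) (√s) with hle | hgt
  · have h1 := hk.exp_mul_lip_le (z := z) (Γ := 4 * A ^ 2) (C₀ := 0) (s' := 4 * A ^ 2 * s) (x := x)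
      (x' := y) (y := x) hs le_rfl le_rfl h3 (by simp) hle
    have h5 : 1 ≤ Real.exp (dist x z ^ 2 / (2 * A * s)) := Real.one_le_exp (by positivity)
    have h6 : |p s x z - p s y z| ≤ Real.exp (dist x z ^ 2 / (2 * A * s)) *
        |p s x z - p s y z| := le_mul_of_one_le_left (abs_nonneg _) h5
    have hc0 := cG_pos (n := n) (Γ := 4 * A ^ 2) (C₀ := 0) hA (by positivity)
    have hcm := cG_mono hk (Γ := 4 * A ^ 2) le_rfl hC₀
    calc |p s x z - p s y z| ≤ cG n A (4 * A ^ 2) 0 * Real.exp (2 * A * dist x o) *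
          (dist x y / √s) * p (4 * A ^ 2 * s) x z := h6.trans h1
      _ ≤ cG n A (4 * A ^ 2) C₀ * Real.exp (2 * A) * (dist x y / √s) * p (4 * A ^ 2 * s) x z := by
          have := h2 x hx
          gcongr
      _ ≤ (2 * Real.exp (2 * A * C₀)) * (cG n A (4 * A ^ 2) C₀ * Real.exp (2 * A) *
          (dist x y / √s) * p (4 * A ^ 2 * s) x z) := by
          have : 0 ≤ cG n A (4 * A ^ 2) C₀ * Real.exp (2 * A) * (dist x y / √s) *
            p (4 * A ^ 2 * s) x z := by positivity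
          nlinarith
      _ = _ := by ring
  · have h1 := hk.p_le (z := z) (Γ := 4 * A ^ 2) (C₀ := C₀) (s' := 4 * A ^ 2 * s) (x := x)
      (x' := x) hs le_rfl le_rfl h3 (by rw [dist_self]; positivity)
    have h1' := hk.p_le (z := z) (Γ := 4 * A ^ 2) (C₀ := C₀) (s' := 4 * A ^ 2 * s) (x := y)
      (x' := x) hs le_rfl le_rfl h3 (by rwa [dist_comm])
    have hs1 : s ≤ 1 / 2 := by nlinarith [one_le_pow₀ hA (n := 2)]
    have p1 := hk.p_pos hs hs1 x z
    have p2 := hk.p_pos hs hs1 y z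
    have h5 : |p s x z - p s y z| ≤ p s x z + p s y z := by
      rw [abs_le]
      constructor <;> linarith
    have h6 : 1 ≤ dist x y / √s := (one_le_div hq).2 hgt.le
    have h7 : 0 ≤ cG n A (4 * A ^ 2) C₀ * Real.exp (2 * A) * p (4 * A ^ 2 * s) x z := by positivity
    calc |p s x z - p s y z| ≤ p s x z + p s y z := h5
      _ ≤ cG n A (4 * A ^ 2) C₀ * Real.exp (2 * A) * p (4 * A ^ 2 * s) x z +
          cG n A (4 * A ^ 2) C₀ * Real.exp (2 * A) * p (4 * A ^ 2 * s) x z := by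
          have a1 := h2 x hx
          have a2 := h2 y hy
          refine add_le_add (h1.trans ?_) (h1'.trans ?_) <;> gcongr
      _ = 2 * (cG n A (4 * A ^ 2) C₀ * Real.exp (2 * A) * p (4 * A ^ 2 * s) x z) := by ring
      _ ≤ 2 * (Real.exp (2 * A * C₀) * (dist x y / √s) * (cG n A (4 * A ^ 2) C₀ *
          Real.exp (2 * A) * p (4 * A ^ 2 * s) x z)) := by
          have : 1 ≤ Real.exp (2 * A * C₀) * (dist x y / √s) := one_le_mul_of_one_le_of_one_le h4 h6
          nlinarith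
      _ = _ := by ring

end ker

end Vale.Agent.P242.H703
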