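import Vale.Agent.P242.H703.HfI

/-! P242, package A-H234 (helper703): the heat flow data of a configuration, part 2. -/

set_option linter.all false

open MeasureTheory Filter Topology Set Metric
open scoped ENNReal NNReal InnerProductSpace

universe u

namespace Vale.Agent.P242.H703

open Vale.Agent.P233 Vale.Agent.P233.RA Vale.Agent.P242.H71 Vale.Agent.P242.H990

variable {M : Type u} [MetricSpace M] [CompleteSpace M] [SecondCountableTopology M]
  [MeasurableSpace M] [BorelSpace M] {m : Measure M} {n : ℕ} {K A : ℝ} {o : M} {p : ℝ → M → M → ℝ}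
  {R Q η ρ : ℝ} {u : Fin n → M →ₘ[m] ℝ} {uu : M → E n}

/-- the constant of the kernel inequalities -/
noncomputable def cH (n : ℕ) (A C₀ : ℝ) : ℝ :=
  2 * Real.exp (2 * A * C₀) * cG n A (4 * A ^ 2) C₀ * Real.exp (2 * A)

theorem one_le_cH {n : ℕ} {A C₀ : ℝ} (hA : 1 ≤ A) (hC₀ : 0 ≤ C₀) : 1 ≤ cH n A C₀ := by
  unfold cH cG
  have h1 : 1 ≤ Real.exp (2 * A * C₀) := Real.one_le_exp (by positivity)
  have h2 : 1 ≤ Real.exp (2 * A) := Real.one_le_exp (by positivity)
  have h3 : 1 ≤ Real.exp (A * C₀ + C₀ ^ 2) := Real.one_le_exp (by positivity)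
  have h4 : 1 ≤ A ^ 2 := one_le_pow₀ hA
  have h5 : 1 ≤ √(4 * A ^ 2) ^ n := by
    refine one_le_pow₀ ?_
    rw [Real.one_le_sqrt]
    linarith
  have h6 : 1 ≤ A ^ 2 * √(4 * A ^ 2) ^ n := one_le_mul_of_one_le_of_one_le h4 h5
  have h7 : 1 ≤ A ^ 2 * √(4 * A ^ 2) ^ n * Real.exp (A * C₀ + C₀ ^ 2) :=
    one_le_mul_of_one_le_of_one_le h6 h3
  have h8 : 1 ≤ 2 * Real.exp (2 * A * C₀) := by linarith
  exact one_le_mul_of_one_le_of_one_le (one_le_mul_of_one_le_of_one_le h8 h7) h2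

section

variable (h : Env m n K o A p) (hu : Cfg m n K o p R Q η ρ u uu)
include h hu

theorem Γ_mem2 (c d : E n) : MemLp ((sob m).Γ (uc u c) (uc u d)) 2 m :=
  (H751.env_gamma h).toIsDir.memLp _ ((H751.env_gamma h).Γ_mem (H751.env_bei h)
    (uc_test h hu c) (uc_test h hu d)).1

theorem mix_mem2 (c d : E n) : MemLp ((sob m).Γ (uc u c) ((sob m).lap (uc u d)) +
    (sob m).Γ (uc u d) ((sob m).lap (uc u c)) : M →ₘ[m] ℝ) 2 m :=
  (H751.env_gamma h).mix_mem2 (uc_test h hu c) (uc_test h hu d)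

theorem gm_nonneg {s : ℝ} (hs : 0 < s) (x : M) (c : E n) : 0 ≤ gm m K p u s x c c :=
  (H751.env_gamma h).NN_nonneg (bei_abs (H751.env_gamma h) (H751.env_bei h))
    (uc_test h hu c) (ph_A' h hu hs x) (ph_nonneg h.ker hs x)

theorem Gm_nonneg {s : ℝ} (hs : 0 < s) (x : M) (c : E n) : 0 ≤ Gm m p u s x c c :=
  I_nonneg (mul_nonneg (ph_nonneg h.ker hs x)
    ((H751.env_gamma h).nonneg _ (H751.uc_W (H751.env_gamma h) hu c)))

/-- `½ d/ds G_s - ½ τ_s = γ_s` -/
theorem lap_Gm {s : ℝ} (hs : 0 < s) (x : M) (c d : E n) :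
    I ((sob m).lap (ph m p s x) * (sob m).Γ (uc u c) (uc u d)) =
      2 * gm m K p u s x c d + tm m K p u s x c d := by
  have hC := H751.env_gamma h
  have key := (H924.cen hC h x).lap_av_Γ (K₀ := |K|) hC (H751.env_bei h) hs
    (uc_test h hu c) (uc_test h hu d)
  rw [key]
  unfold tm gm gam Gm PP
  ring

theorem hasDeriv_Gm {s : ℝ} (hs : 0 < s) (x : M) (c d : E n) :
    HasDerivAt (fun s => Gm m p u s x c d) (2 * gm m K p u s x c d + tm m K p u s x c d) s := by
  have hC := H751.env_gamma h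
  have key := (H924.cen hC h x).hasDeriv_av hC.toIsDir hs (Γ_mem2 h hu c d)
  rw [lap_Gm h hu hs x c d] at key
  exact key

/-- continuity of `s ↦ Δ P_s F (x)` -/
theorem cont_lap_av {F : M →ₘ[m] ℝ} (hF : MemLp F 2 m) (x : M) {s : ℝ} (hs : 0 < s) :
    ContinuousAt (fun s => I ((sob m).lap (ph m p s x) * F)) s := by
  have hC := H751.env_gamma h
  have hD := hC.toIsDir
  have hcen := H924.cen hC h x
  have h4 : 0 < s / 4 := by linarith
  have h2 : 0 < s / 2 := by linarith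
  -- `lap φ_{s/2} = P_{s/4} lap φ_{s/4}`
  have e1 : (sob m).lap (ph m p (s / 2) x) = (sob m).P (s / 4) ((sob m).lap (ph m p (s / 4) x)) := by
    have := hcen.P_lap hD h4 h4.le
    rw [this]
    congr 2
    ring
  have hl : MemLp ((sob m).lap (ph m p (s / 4) x)) 2 m := (hcen.isLap hD h4).2.1
  have hL : (sob m).IsLap ((sob m).lap (ph m p (s / 2) x))
      ((sob m).lap ((sob m).P (s / 4) ((sob m).lap (ph m p (s / 4) x)))) := by
    rw [e1]
    exact hD.P_isLap h4 hl
  have h5 := hD.P_hasDeriv_I (t := s / 2) h2 hL hF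
  have h6 : ContinuousAt (fun r => I ((sob m).P (r - s / 2) ((sob m).lap (ph m p (s / 2) x)) * F))
      s := by
    have h7 : ContinuousAt (fun r : ℝ => r - s / 2) s := by fun_prop
    have e2 : s - s / 2 = s / 2 := by ring
    have h8 : ContinuousAt (fun r => I ((sob m).P r ((sob m).lap (ph m p (s / 2) x)) * F))
        ((fun r : ℝ => r - s / 2) s) := by
      simp only [e2]
      exact h5.continuousAt
    exact ContinuousAt.comp (g := fun r => I ((sob m).P r ((sob m).lap (ph m p (s / 2) x)) * F))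
      h8 h7
  refine h6.congr ?_
  filter_upwards [eventually_gt_nhds (show s / 2 < s by linarith)] with r hr
  have := hcen.P_lap hD (s := s / 2) (t := r - s / 2) h2 (by linarith)
  rw [this]
  congr 3
  ring_nf

theorem cont_av {F : M →ₘ[m] ℝ} (hF : MemLp F 2 m) (x : M) {s : ℝ} (hs : 0 < s) :
    ContinuousAt (fun s => I (ph m p s x * F)) s :=
  ((H924.cen (H751.env_gamma h) h x).hasDeriv_av (H751.env_gamma h).toIsDir hs hF).continuousAt

theorem cont_tm (x : M) (c d : E n) {s : ℝ} (hs : 0 < s) :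
    ContinuousAt (fun s => tm m K p u s x c d) s := by
  unfold tm
  refine ContinuousAt.sub (cont_av h hu (mix_mem2 h hu c d) x hs) ?_
  exact continuousAt_const.mul (cont_av h hu (Γ_mem2 h hu c d) x hs)

theorem cont_gm (x : M) (c d : E n) {s : ℝ} (hs : 0 < s) :
    ContinuousAt (fun s => gm m K p u s x c d) s := by
  have h1 : ContinuousAt (fun s => 2⁻¹ * (I ((sob m).lap (ph m p s x) *
      (sob m).Γ (uc u c) (uc u d)) - tm m K p u s x c d)) s :=
    continuousAt_const.mul ((cont_lap_av h hu (Γ_mem2 h hu c d) x hs).sub (cont_tm h hu x c d hs))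
  refine h1.congr ?_
  filter_upwards [eventually_gt_nhds hs] with r hr
  rw [lap_Gm h hu hr x c d]
  ring

/-- Harnack inequality for `γ` -/
theorem gm_harn {C₀ s s' : ℝ} {x y : M} (hs : 0 < s) (hss : s ≤ s')
    (h3 : 4 * A ^ 2 * s' ≤ 1 / 2) (hC₀ : 0 ≤ C₀) (hxy : dist x y ≤ C₀ * √s) (hy : dist y o ≤ 1)
    (c : E n) : gm m K p u s y c c ≤
      cH n A C₀ * (s' / s) ^ ((n : ℝ) / 2) * gm m K p u (4 * A ^ 2 * s') x c c := by
  have hC := H751.env_gamma h
  have hA0 := h.kb.pos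
  have hs' : 0 < s' := lt_of_lt_of_le hs hss
  have hs2 : 0 < 4 * A ^ 2 * s' := by positivity
  refine hC.NN_harn (bei_abs hC (H751.env_bei h)) (uc_test h hu c) (ph_A' h hu hs y)
    (ph_A' h hu hs2 x) ?_
  rw [le_iff_ae]
  filter_upwards [ph_ae h.ker hs y, ph_ae h.ker hs2 x,
    smul_ae (ph m p (4 * A ^ 2 * s') x) (cH n A C₀ * (s' / s) ^ ((n : ℝ) / 2))] with z a1 a2 a3
  rw [a1, a3, a2]
  exact ker_harn h.kb hs hss h3 hC₀ hxy hy

/-- Lipschitz estimate for `γ` -/
theorem gm_lip {C₀ s : ℝ} {x y : M} (hs : 0 < s)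
    (h3 : 4 * A ^ 2 * s ≤ 1 / 2) (hC₀ : 0 ≤ C₀) (hxy : dist x y ≤ C₀ * √s) (hx : dist x o ≤ 1)
    (hy : dist y o ≤ 1) (c d : E n) :
    |gm m K p u s x c d - gm m K p u s y c d| ≤ cH n A C₀ * (dist x y / √s) *
      (√(gm m K p u (4 * A ^ 2 * s) x c c) * √(gm m K p u (4 * A ^ 2 * s) x d d)) := by
  have hC := H751.env_gamma h
  have hB := bei_abs hC (H751.env_bei h)
  have hA0 := h.kb.pos
  have hs2 : 0 < 4 * A ^ 2 * s := by positivity
  have hcH := one_le_cH (n := n) h.kb.one_le hC₀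
  set b := cH n A C₀ * (dist x y / √s) with hb
  have hb0 : 0 ≤ b := by positivity
  have tc := uc_test h hu c
  have td := uc_test h hu d
  have pA := ph_A' h hu hs2 x
  have e1 : gm m K p u s x c d - gm m K p u s y c d =
      (sob m).NN (-|K|) (uc u c) (uc u d) (ph m p s x - ph m p s y) :=
    (hC.NN_sub_φ hB tc td (ph_A' h hu hs x) (ph_A' h hu hs y)).symm
  have hle : ∀ᵐ z ∂m, |ph m p s x z - ph m p s y z| ≤ b * ph m p (4 * A ^ 2 * s) x z := by
    filter_upwards [ph_ae h.ker hs x, ph_ae h.ker hs y, ph_ae h.ker hs2 x] with z a1 a2 a3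
    rw [a1, a2, a3]
    exact ker_lip h.kb hs h3 hC₀ hxy hx hy
  have h5 := hC.NN_abs_le hB tc td (hC.A_sub (ph_A' h hu hs x) (ph_A' h hu hs y))
    (hC.A_smul b pA) (by
      rw [le_iff_ae]
      filter_upwards [hle, sub_ae (ph m p s x) (ph m p s y),
        smul_ae (ph m p (4 * A ^ 2 * s) x) b] with z a1 a2 a3
      rw [a2, a3]
      exact (le_abs_self _).trans a1) (by
      rw [le_iff_ae]
      filter_upwards [hle, sub_ae (ph m p s x) (ph m p s y),
        smul_ae (ph m p (4 * A ^ 2 * s) x) b, neg_ae (ph m p s x - ph m p s y)] with z a1 a2 a3 a4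
      rw [a4, a2, a3]
      exact (neg_le_abs _).trans a1)
  rw [e1]
  refine h5.trans (le_of_eq ?_)
  rw [hC.NN_smul_φ hB b tc tc pA, hC.NN_smul_φ hB b td td pA, Real.sqrt_mul hb0,
    Real.sqrt_mul hb0]
  have := Real.mul_self_sqrt hb0
  calc _ = (√b * √b) * (√(gm m K p u (4 * A ^ 2 * s) x c c) *
        √(gm m K p u (4 * A ^ 2 * s) x d d)) := by
        unfold gm gam
        ring
    _ = _ := by rw [this]

end

end Vale.Agent.P242.H703
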