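import Vale.Agent.P242.H703.HfJ

/-! P242, package A-H234 (helper703): the heat flow data of a configuration, part 3. -/

set_option linter.all false

open MeasureTheory Filter Topology Set Metric
open scoped ENNReal NNReal InnerProductSpace

universe u

namespace Vale.Agent.P242.H703

open Vale.Agent.P233 Vale.Agent.P233.RA Vale.Agent.P242.H71 Vale.Agent.P242.H990

variable {M : Type u} [MetricSpace M] [CompleteSpace M] [SecondCountableTopology M]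
  [MeasurableSpace M] [BorelSpace M] {m : Measure M} {n : ℕ} {K A : ℝ} {o : M} {p : ℝ → M → M → ℝ}
  {R Q η ρ : ℝ} {u : Fin n → M →ₘ[m] ℝ} {uu : M → E n}

section

variable (h : Env m n K o A p) (hu : Cfg m n K o p R Q η ρ u uu)
include h hu

theorem PP_grad_le {s : ℝ} (hs : 0 < s) (x : M) (c : E n) :
    PP m p s x ((sob m).Γ (uc u c) (uc u c)) ≤ (2 * √n * ‖c‖) ^ 2 := by
  have hC := H751.env_gamma h
  have h1 : ∀ᵐ z ∂m, |(sob m).Γ (uc u c) (uc u c) z| ≤ (2 * √n * ‖c‖) ^ 2 := by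
    filter_upwards [H924.uc_grad h hu c, hC.toIsDir.Γ_nonneg_ae (H751.uc_W hC hu c)] with z a1 a2
    rwa [abs_of_nonneg a2]
  have h2 := pt_bdd h.ker hs x ((sob m).Γ (uc u c) (uc u c)).aestronglyMeasurable h1
  unfold PP
  rw [I_ph_mul h.ker hs]
  exact (le_abs_self _).trans h2

/-- basic bound with a signed weight dominated by the kernel -/
theorem sgn_bd {s : ℝ} (hs : 0 < s) (hsQ : s ≤ Q * ρ ^ 2) {x : M} (hx : x ∈ ball o (R * ρ))
    (hη : 0 ≤ η) {z : M →ₘ[m] ℝ} (hz : MemLp z ∞ m) (hz1 : MemLp z 1 m) {b : ℝ} (hb : 0 ≤ b)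
    (hle : ∀ᵐ w ∂m, |z w| ≤ b * ph m p s x w) (c d : E n) :
    |I (z * ((sob m).Γ (uc u c) ((sob m).lap (uc u d)) +
      (sob m).Γ (uc u d) ((sob m).lap (uc u c)))) -
      2 * |K| * I (z * (sob m).Γ (uc u c) (uc u d))| ≤
      b * (12 * n * η / ρ ^ 2) * (‖c‖ * ‖d‖) := by
  have hC := H751.env_gamma h
  have hD := hC.toIsDir
  have hρ := hu.ρ_pos
  have hn : (0 : ℝ) ≤ n := Nat.cast_nonneg n
  have hφ : MemLp (b • ph m p s x : M →ₘ[m] ℝ) ∞ m := mem_smul _ (ph_top hC h.ker h.kb hs x)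
  have h1 : ∀ᵐ w ∂m, |z w| ≤ (b • ph m p s x : M →ₘ[m] ℝ) w := by
    filter_upwards [hle, smul_ae (ph m p s x) b] with w a1 a2
    rwa [a2]
  have hW : ∀ v : E n, uc u v ∈ (sob m).W := fun v => H751.uc_W hC hu v
  have hL : ∀ v : E n, (sob m).lap (uc u v) ∈ (sob m).W := fun v =>
    hC.test_lap_mem (uc_test h hu v)
  have eI : ∀ F : M →ₘ[m] ℝ, I ((b • ph m p s x : M →ₘ[m] ℝ) * F) = b * PP m p s x F := by
    intro F
    unfold PP
    rw [smul_mul_assoc, I_smul]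
  have g0 : ∀ v : E n, 0 ≤ PP m p s x ((sob m).Γ (uc u v) (uc u v)) := fun v =>
    I_nonneg (mul_nonneg (ph_nonneg h.ker hs x) (hD.nonneg _ (hW v)))
  have sg : ∀ v : E n, √(b * PP m p s x ((sob m).Γ (uc u v) (uc u v))) ≤ √b * (2 * √n * ‖v‖) := by
    intro v
    rw [Real.sqrt_mul hb]
    refine mul_le_mul_of_nonneg_left ?_ (Real.sqrt_nonneg _)
    rw [← Real.sqrt_sq (show 0 ≤ 2 * √(n : ℝ) * ‖v‖ by positivity)]
    exact Real.sqrt_le_sqrt (PP_grad_le h hu hs x v)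
  have sl : ∀ v : E n, √(b * PP m p s x ((sob m).Γ ((sob m).lap (uc u v))
      ((sob m).lap (uc u v)))) ≤ √b * (√n * ‖v‖ * (η / ρ ^ 2)) := by
    intro v
    rw [Real.sqrt_mul hb]
    refine mul_le_mul_of_nonneg_left ?_ (Real.sqrt_nonneg _)
    rw [← Real.sqrt_sq (show 0 ≤ √(n : ℝ) * ‖v‖ * (η / ρ ^ 2) by positivity)]
    exact Real.sqrt_le_sqrt (H924.uc_lap2 h hu v hx hs hsQ)
  have hbb : √b * √b = b := Real.mul_self_sqrt hb
  have hnn : √(n : ℝ) * √n = n := Real.mul_self_sqrt hn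
  have k1 : ∀ v w : E n, |I (z * (sob m).Γ (uc u v) ((sob m).lap (uc u w)))| ≤
      b * (2 * n * η / ρ ^ 2) * (‖v‖ * ‖w‖) := by
    intro v w
    have a1 := I_abs_Γ_le hD hz hφ h1 (hW v) (hL w)
    rw [eI, eI] at a1
    refine a1.trans ((mul_le_mul (sg v) (sl w) (Real.sqrt_nonneg _) (by positivity)).trans
      (le_of_eq ?_))
    calc √b * (2 * √n * ‖v‖) * (√b * (√n * ‖w‖ * (η / ρ ^ 2)))
        = (√b * √b) * (√n * √n) * (2 * (η / ρ ^ 2)) * (‖v‖ * ‖w‖) := by ring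
      _ = _ := by rw [hbb, hnn]; ring
  have k2 : |I (z * (sob m).Γ (uc u c) (uc u d))| ≤ b * (4 * n) * (‖c‖ * ‖d‖) := by
    have a1 := I_abs_Γ_le hD hz hφ h1 (hW c) (hW d)
    rw [eI, eI] at a1
    refine a1.trans ((mul_le_mul (sg c) (sg d) (Real.sqrt_nonneg _) (by positivity)).trans
      (le_of_eq ?_))
    calc √b * (2 * √n * ‖c‖) * (√b * (2 * √n * ‖d‖))
        = (√b * √b) * (√n * √n) * 4 * (‖c‖ * ‖d‖) := by ring
      _ = _ := by rw [hbb, hnn]; ring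
  have k3 : |K| ≤ η / ρ ^ 2 := by
    rw [le_div_iff₀ (by positivity)]
    exact hu.Kρ
  rw [mul_add, I_add (mem_mul_top hz (hD.Γ_mem1 (hW c) (hL d)))
    (mem_mul_top hz (hD.Γ_mem1 (hW d) (hL c)))]
  have k4 := k1 c d
  have k5 := k1 d c
  have k6 : |2 * |K| * I (z * (sob m).Γ (uc u c) (uc u d))| ≤
      b * (8 * n * η / ρ ^ 2) * (‖c‖ * ‖d‖) := by
    rw [abs_mul, abs_mul, abs_two, abs_abs]
    calc 2 * |K| * |I (z * (sob m).Γ (uc u c) (uc u d))|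
        ≤ 2 * (η / ρ ^ 2) * (b * (4 * n) * (‖c‖ * ‖d‖)) := by gcongr
      _ = _ := by ring
  have k7 : |I (z * (sob m).Γ (uc u c) ((sob m).lap (uc u d))) +
      I (z * (sob m).Γ (uc u d) ((sob m).lap (uc u c))) -
      2 * |K| * I (z * (sob m).Γ (uc u c) (uc u d))| ≤
      |I (z * (sob m).Γ (uc u c) ((sob m).lap (uc u d)))| +
      |I (z * (sob m).Γ (uc u d) ((sob m).lap (uc u c)))| +
      |2 * |K| * I (z * (sob m).Γ (uc u c) (uc u d))| :=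
    (abs_sub _ _).trans (add_le_add (abs_add_le _ _) le_rfl)
  refine k7.trans ?_
  have k8 : b * (2 * n * η / ρ ^ 2) * (‖d‖ * ‖c‖) = b * (2 * n * η / ρ ^ 2) * (‖c‖ * ‖d‖) := by
    ring
  have k9 : b * (12 * n * η / ρ ^ 2) * (‖c‖ * ‖d‖) = b * (2 * n * η / ρ ^ 2) * (‖c‖ * ‖d‖) +
      b * (2 * n * η / ρ ^ 2) * (‖c‖ * ‖d‖) + b * (8 * n * η / ρ ^ 2) * (‖c‖ * ‖d‖) := by ring
  rw [k9]
  rw [k8] at k5
  linarith

theorem tm_bd {s : ℝ} (hs : 0 < s) (hsQ : s ≤ Q * ρ ^ 2) {x : M} (hx : x ∈ ball o (R * ρ))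
    (hη : 0 ≤ η) (c d : E n) : |tm m K p u s x c d| ≤ 12 * n * η / ρ ^ 2 * (‖c‖ * ‖d‖) := by
  have hC := H751.env_gamma h
  have key := sgn_bd h hu hs hsQ hx hη (z := ph m p s x) (ph_top hC h.ker h.kb hs x)
    (ph_mem1 h.ker hs x) (b := 1) zero_le_one (by
      filter_upwards [nonneg_iff_ae.1 (ph_nonneg h.ker hs x)] with w a1
      rw [abs_of_nonneg a1, one_mul]) c d
  rw [one_mul] at key
  exact key

theorem tm_lip {C₀ s : ℝ} {x y : M} (hs : 0 < s) (h3 : 4 * A ^ 2 * s ≤ 1 / 2)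
    (hsQ : 4 * A ^ 2 * s ≤ Q * ρ ^ 2) (hxR : x ∈ ball o (R * ρ))
    (hC₀ : 0 ≤ C₀) (hxy : dist x y ≤ C₀ * √s) (hx : dist x o ≤ 1)
    (hy : dist y o ≤ 1) (hη : 0 ≤ η) (c d : E n) :
    |tm m K p u s x c d - tm m K p u s y c d| ≤
      cH n A C₀ * (dist x y / √s) * (12 * n * η / ρ ^ 2) * (‖c‖ * ‖d‖) := by
  have hC := H751.env_gamma h
  have hA0 := h.kb.pos
  have hs2 : 0 < 4 * A ^ 2 * s := by positivity
  have hcH := one_le_cH (n := n) h.kb.one_le hC₀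
  have key := sgn_bd h hu hs2 hsQ hxR hη (z := ph m p s x - ph m p s y)
    (mem_sub (ph_top hC h.ker h.kb hs x) (ph_top hC h.ker h.kb hs y))
    (mem_sub (ph_mem1 h.ker hs x) (ph_mem1 h.ker hs y)) (b := cH n A C₀ * (dist x y / √s))
    (by positivity) (by
      filter_upwards [ph_ae h.ker hs x, ph_ae h.ker hs y, ph_ae h.ker hs2 x,
        sub_ae (ph m p s x) (ph m p s y)] with z a1 a2 a3 a4
      rw [a4, a1, a2, a3]
      exact ker_lip h.kb hs h3 hC₀ hxy hx hy) c d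
  refine le_trans (le_of_eq ?_) key
  congr 1
  have k : ∀ F : M →ₘ[m] ℝ, MemLp F 2 m →
      I ((ph m p s x - ph m p s y) * F) = PP m p s x F - PP m p s y F := by
    intro F hF
    unfold PP
    rw [sub_mul, I_sub (mem_mul_22 (ph_mem2 h.ker hs x) hF) (mem_mul_22 (ph_mem2 h.ker hs y) hF)]
  rw [k _ (mix_mem2 h hu c d), k _ (Γ_mem2 h hu c d)]
  unfold tm Gm
  ring

theorem Gm_lip_top {C₀ s : ℝ} {x y : M} (hs : 0 < s) (h3 : 4 * A ^ 2 * s ≤ 1 / 2)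
    (hsQ : 4 * A ^ 2 * s ≤ Q * ρ ^ 2) (hsQ' : ρ ^ 2 / Q ≤ 4 * A ^ 2 * s)
    (hxR : x ∈ ball o (R * ρ))
    (hC₀ : 0 ≤ C₀) (hxy : dist x y ≤ C₀ * √s) (hx : dist x o ≤ 1)
    (hy : dist y o ≤ 1) (c d : E n) :
    |Gm m p u s x c d - Gm m p u s y c d| ≤
      cH n A C₀ * (dist x y / √s) * (η * ‖c‖ * ‖d‖) := by
  have hC := H751.env_gamma h
  have hA0 := h.kb.pos
  have hs2 : 0 < 4 * A ^ 2 * s := by positivity
  have hcH := one_le_cH (n := n) h.kb.one_le hC₀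
  set F : M →ₘ[m] ℝ := (sob m).Γ (uc u c) (uc u d) - ⟪c, d⟫_ℝ • (1 : M →ₘ[m] ℝ) with hF
  have hFt : MemLp F ∞ m := Vale.Agent.P233.mem_sub (H751.Γ_top hC hu c d)
    (Vale.Agent.P233.mem_smul _ ((memLp_congr_ae (one_ae (M := M) (m := m))).2 (memLp_top_const 1)))
  have key := (I_mul_le_of_ker h.ker hs2 (a := ph m p s x - ph m p s y) (F := F)
    (c := cH n A C₀ * (dist x y / √s)) (x' := x) (by
      filter_upwards [ph_ae h.ker hs x, ph_ae h.ker hs y,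
        sub_ae (ph m p s x) (ph m p s y)] with z a1 a2 a4
      rw [a4, a1, a2]
      exact ker_lip h.kb hs h3 hC₀ hxy hx hy) (pt_int_top h.ker hs2 x hFt)).2.2
  have e1 : I ((ph m p s x - ph m p s y) * F) = Gm m p u s x c d - Gm m p u s y c d := by
    have m1 : ∀ w : M, MemLp (ph m p s w * (sob m).Γ (uc u c) (uc u d) : M →ₘ[m] ℝ) 1 m :=
      fun w => mem_mul_22 (ph_mem2 h.ker hs w) (Γ_mem2 h hu c d)
    have m2 : ∀ w : M, MemLp (ph m p s w : M →ₘ[m] ℝ) 1 m := fun w => ph_mem1 h.ker hs w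
    have e2 : (ph m p s x - ph m p s y) * F =
        (ph m p s x * (sob m).Γ (uc u c) (uc u d) - ph m p s y * (sob m).Γ (uc u c) (uc u d)) -
        ⟪c, d⟫_ℝ • (ph m p s x - ph m p s y) := by
      rw [hF, mul_sub, sub_mul, mul_smul_comm, mul_one]
    rw [e2, I_sub (mem_sub (m1 x) (m1 y)) (mem_smul _ (mem_sub (m2 x) (m2 y))),
      I_sub (m1 x) (m1 y), I_smul, I_sub (m2 x) (m2 y), I_ph h.ker hs, I_ph h.ker hs]
    unfold Gm PP
    ring
  rw [e1] at key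
  refine key.trans ?_
  have e3 : H520.pt m p (4 * A ^ 2 * s) (fun z => |F z|) x = PP m p (4 * A ^ 2 * s) x |F| := by
    unfold PP
    rw [I_ph_mul h.ker hs2]
    exact pt_congr h.ker (AEEqFun.coeFn_abs F).symm _ _
  have h5 := hu.gram1 x hxR (4 * A ^ 2 * s) hsQ' hsQ c d
  rw [e3]
  have hb : 0 ≤ cH n A C₀ * (dist x y / √s) := by positivity
  exact mul_le_mul_of_nonneg_left h5 hb

end

end Vale.Agent.P242.H703
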